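import Vale.Agent.P105.Final

open Finset Real Polynomial

namespace Vale.Agent.P105

lemma int_of_rec (g : ℤ → ℝ) (a b : ℤ)
    (hrec : ∀ m, g (m + 2) = a * (g (m + 1) + g (m - 1)) - b * g m - g (m - 2))
    (hodd : ∀ m, g (-m) = -g m) (h1 : g 1 = 0) (h2 : g 2 = 1) (m : ℤ) : ∃ k : ℤ, g m = k := by
  have h0 : g 0 = 0 := by
    have := hodd 0
    rw [neg_zero] at this
    linarith
  have key : ∀ n : ℕ, (∃ k : ℤ, g (n - 1) = k) ∧ (∃ k : ℤ, g n = k) ∧ (∃ k : ℤ, g (n + 1) = k) ∧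
      ∃ k : ℤ, g (n + 2) = k := by
    intro n
    induction n with
    | zero =>
      refine ⟨⟨0, ?_⟩, ⟨0, ?_⟩, ⟨0, ?_⟩, ⟨1, ?_⟩⟩
      · have := hodd 1
        simp only [Nat.cast_zero, zero_sub, Int.cast_zero]
        linarith
      · simpa using h0
      · simpa using h1
      · simpa using h2
    | succ n ih =>
      obtain ⟨⟨k1, e1⟩, ⟨k2, e2⟩, ⟨k3, e3⟩, ⟨k4, e4⟩⟩ := ih
      refine ⟨⟨k2, ?_⟩, ⟨k3, ?_⟩, ⟨k4, ?_⟩, ⟨a * (k4 + k2) - b * k3 - k1, ?_⟩⟩
      · rw [← e2]; congr 1; push_cast; ring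
      · rw [← e3]; congr 1
      · rw [← e4]; congr 1
      · have := hrec (n + 1)
        rw [show (n : ℤ) + 1 + 1 = n + 2 by ring, show (n : ℤ) + 1 - 1 = n by ring,
          show (n : ℤ) + 1 - 2 = n - 1 by ring, e1, e2, e3, e4] at this
        push_cast
        exact this
  obtain ⟨n, rfl | rfl⟩ := m.eq_nat_or_neg
  · exact (key n).2.1
  · obtain ⟨k, hk⟩ := (key n).2.1
    exact ⟨-k, by rw [hodd, hk]; push_cast; ring⟩

lemma zpow_rec {β : ℝ} (hb : β ≠ 0) {a b : ℝ} (hP : β ^ 4 - a * β ^ 3 + b * β ^ 2 - a * β + 1 = 0)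
    (m : ℤ) : β ^ (m + 2) = a * (β ^ (m + 1) + β ^ (m - 1)) - b * β ^ m - β ^ (m - 2) := by
  have e : ∀ j : ℕ, β ^ (m - 2 + j) = β ^ (m - 2) * β ^ j := fun j => by
    rw [zpow_add₀ hb, zpow_natCast]
  have e1 := e 1
  have e2 := e 2
  have e3 := e 3
  have e4 := e 4
  rw [show m - 2 + ((1 : ℕ) : ℤ) = m - 1 by push_cast; ring] at e1
  rw [show m - 2 + ((2 : ℕ) : ℤ) = m by push_cast; ring] at e2
  rw [show m - 2 + ((3 : ℕ) : ℤ) = m + 1 by push_cast; ring] at e3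
  rw [show m - 2 + ((4 : ℕ) : ℤ) = m + 2 by push_cast; ring] at e4
  linear_combination β ^ (m - 2) * hP + e4 - a * e3 - a * e1 + b * e2

lemma sin_rec {θ a b : ℝ} (h : (2 * cos θ) ^ 2 - a * (2 * cos θ) + (b - 2) = 0) (m : ℤ) :
    sin (((m + 2 : ℤ) : ℝ) * θ + 0) = a * (sin (((m + 1 : ℤ) : ℝ) * θ + 0)
      + sin (((m - 1 : ℤ) : ℝ) * θ + 0)) - b * sin ((m : ℝ) * θ + 0)
      - sin (((m - 2 : ℤ) : ℝ) * θ + 0) := by
  rw [show ((m + 2 : ℤ) : ℝ) * θ + 0 = m * θ + 2 * θ by push_cast; ring,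
    show ((m + 1 : ℤ) : ℝ) * θ + 0 = m * θ + θ by push_cast; ring,
    show ((m - 1 : ℤ) : ℝ) * θ + 0 = m * θ - θ by push_cast; ring,
    show ((m - 2 : ℤ) : ℝ) * θ + 0 = m * θ - 2 * θ by push_cast; ring, add_zero,
    sin_add, sin_add, sin_sub, sin_sub, cos_two_mul]
  linear_combination sin (m * θ) * h

theorem isSingular_of_quartic {β y' D : ℝ} (a b : ℤ) (hβ : 1.71 ≤ β)
    (hP : β ^ 4 - a * β ^ 3 + b * β ^ 2 - a * β + 1 = 0) (hy : y' = a - (β + β⁻¹))
    (hD : D = β + β⁻¹ - y') (h1 : 2 * β ^ 2 < (β ^ 2 - 1) * D) (h2 : (β - β⁻¹) * D ≤ 8)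
    (h3 : 6.25 ≤ (1 - y' ^ 2 / 4) * D ^ 2) : IsSingular (bernoulliConv β⁻¹) := by
  have hb : 0 < β := by linarith
  have hb1 : 1 < β := by linarith
  have hi : β * β⁻¹ = 1 := mul_inv_cancel₀ hb.ne'
  have hi0 : 0 < β⁻¹ := inv_pos.mpr hb
  have hi1 : β⁻¹ < 1 := inv_lt_one_of_one_lt₀ hb1
  have hD0 : 0 < D := by
    by_contra h
    have : (β ^ 2 - 1) * D ≤ 0 := mul_nonpos_of_nonneg_of_nonpos (by nlinarith) (not_lt.mp h)
    nlinarith
  have hy2 : y' ^ 2 < 4 := by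
    by_contra h
    have : (1 - y' ^ 2 / 4) * D ^ 2 ≤ 0 :=
      mul_nonpos_of_nonpos_of_nonneg (by linarith) (sq_nonneg _)
    linarith
  obtain ⟨θ, hcos, hs0⟩ : ∃ θ : ℝ, cos θ = y' / 2 ∧ 0 ≤ sin θ :=
    ⟨arccos (y' / 2), cos_arccos (by nlinarith) (by nlinarith),
      sin_nonneg_of_nonneg_of_le_pi (arccos_nonneg _) (arccos_le_pi _)⟩
  have hs2 : sin θ ^ 2 = 1 - y' ^ 2 / 4 := by rw [sin_sq, hcos]; ring
  have hsD : 2.5 ≤ sin θ * D := by
    refine (pow_le_pow_iff_left₀ (by norm_num) (by positivity) two_ne_zero).mp ?_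
    rw [mul_pow, hs2]; linarith
  have hs : 0 < sin θ := by
    rcases hs0.lt_or_eq with h | h
    · exact h
    · rw [← h] at hsD; linarith
  have hq : 0 < β - β⁻¹ := by linarith
  obtain ⟨z, hz⟩ : ∃ z, z = 1 / ((β - β⁻¹) * D) := ⟨_, rfl⟩
  obtain ⟨B, hB⟩ : ∃ B, B = -1 / (sin θ * D) := ⟨_, rfl⟩
  have hz0 : 0 < z := by rw [hz]; positivity
  have hzq : z * ((β - β⁻¹) * D) = 1 := by rw [hz]; exact one_div_mul_cancel (by positivity)
  have hBq : B * (sin θ * D) = -1 := by rw [hB]; field_simp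
  have hzβ : z * β < 1 / 2 := by
    rw [hz, div_mul_eq_mul_div, div_lt_iff₀ (by positivity)]
    have : β * ((β - β⁻¹) * D) = (β ^ 2 - 1) * D := by linear_combination (-D) * hi
    nlinarith
  have hBa : |B| ≤ 0.4 := by
    rw [hB, abs_div, abs_neg, abs_one, abs_of_pos (by positivity), div_le_iff₀ (by positivity)]
    linarith
  have hz1 : z ≤ 1 := by linarith [mul_le_mul_of_nonneg_left hb1.le hz0.le]
  have htr : (2 * cos θ) ^ 2 - a * (2 * cos θ) + ((b : ℝ) - 2) = 0 := by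
    rw [hcos, hy]
    have : (β + β⁻¹) ^ 2 - a * (β + β⁻¹) + (b - 2) = 0 := by
      field_simp
      linear_combination hP
    linear_combination this
  have hint : ∀ m : ℤ, ∃ k : ℤ, z * β ^ m + (-1) * (z * β ^ (-m)) + B * sin (m * θ + 0) = k := by
    refine int_of_rec (fun m => z * β ^ m + (-1) * (z * β ^ (-m)) + B * sin (m * θ + 0)) a b
      (fun m => ?_) (fun m => ?_) ?_ ?_
    · have r1 := zpow_rec hb.ne' hP m
      have r2 := zpow_rec hb.ne' hP (-m)
      have r3 := sin_rec htr m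
      rw [show -m + 2 = -(m - 2) by ring, show -m + 1 = -(m - 1) by ring,
        show -m - 1 = -(m + 1) by ring, show -m - 2 = -(m + 2) by ring] at r2
      linear_combination z * r1 - z * r2 + B * r3
    · simp only [neg_neg, Int.cast_neg, neg_mul, add_zero, sin_neg]
      ring
    · simp only [zpow_one, zpow_neg, Int.cast_one, one_mul, add_zero]
      have : D * (z * β + -1 * (z * β⁻¹) + B * sin θ) = 0 := by linear_combination hzq + hBq
      exact (mul_eq_zero.mp this).resolve_left hD0.ne'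
    · simp only [zpow_neg, zpow_ofNat, Int.cast_ofNat, add_zero, sin_two_mul, hcos]
      have : D * (z * β ^ 2 + -1 * (z * (β ^ 2)⁻¹) + B * (2 * sin θ * (y' / 2)) - 1) = 0 := by
        rw [← inv_pow]
        linear_combination (β + β⁻¹) * hzq + y' * hBq - hD
      have := (mul_eq_zero.mp this).resolve_left hD0.ne'
      linarith
  have hG : Good β θ z (-1) B 0 0 3 (max (z * β) (z * β ^ (-2 : ℤ) + |B|)) := by
    refine ⟨Or.inr rfl, hint, ?_, by simpa using hz1, fun M => ?_, fun m => ?_⟩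
    · rw [hz, div_le_div_iff₀ (by norm_num) (by positivity)]; linarith
    · refine le_trans (sum_le_sum fun n _ => ?_) (geom_bound (β := β) (by linarith) M)
      have p1 : 0 < β ^ (-(n : ℤ)) := by positivity
      have p2 : dz (z * β ^ (-(n : ℤ))) ≤ β ^ (-(n : ℤ)) := by
        refine (dz_le_abs _).trans ?_
        rw [abs_of_pos (by positivity)]
        exact mul_le_of_le_one_left p1.le hz1
      have p3 := dz_le_half (z * β ^ (-(n : ℤ)))
      have p4 := dz_nonneg (z * β ^ (-(n : ℤ)))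
      rw [sq]
      exact (mul_le_of_le_one_left p4 (by linarith)).trans p2
    · rcases le_or_gt m 1 with hm | hm
      · refine le_trans ((dz_le_abs _).trans ?_) (le_max_left _ _)
        rw [abs_of_pos (by positivity)]
        refine mul_le_mul_of_nonneg_left ?_ hz0.le
        simpa using zpow_le_zpow_right₀ hb1.le hm
      · refine le_trans ((refl_of_int (Or.inr rfl) hint m).trans ?_) (le_max_right _ _)
        refine add_le_add ((dz_le_abs _).trans ?_) le_rfl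
        rw [abs_of_pos (by positivity)]
        exact mul_le_mul_of_nonneg_left (zpow_le_zpow_right₀ hb1.le (by omega)) hz0.le
  refine isSingular_of_good (by linarith) hG (by linarith) (max_lt hzβ ?_)
  have h5 : 5 ≤ β ^ 3 := le_trans (by norm_num) (pow_le_pow_left₀ (by norm_num) hβ 3)
  have h6 : z * β ^ (-2 : ℤ) * β ^ 3 = z * β := by
    rw [zpow_neg, zpow_ofNat]; field_simp
  have h7 : 0 < z * β ^ (-2 : ℤ) := by positivity
  have h8 := mul_le_mul_of_nonneg_left h5 h7.le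
  linarith

theorem isSingular_one {β : ℝ} (h1 : 1 < β) (hP : β ^ 4 - β ^ 3 - β ^ 2 - β + 1 = 0) :
    IsSingular (bernoulliConv β⁻¹) := by
  have hb : 0 < β := by linarith
  have hi : β * β⁻¹ = 1 := mul_inv_cancel₀ hb.ne'
  have hi0 : 0 < β⁻¹ := inv_pos.mpr hb
  have hi1 : β⁻¹ < 1 := inv_lt_one_of_one_lt₀ h1
  have hy : (β + β⁻¹) ^ 2 - (β + β⁻¹) - 3 = 0 := by
    field_simp
    linear_combination hP
  set y := β + β⁻¹ with hyd
  have y1 : 2.302 ≤ y := by nlinarith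
  have y2 : y ≤ 2.303 := by nlinarith
  have b1 : 1.72 ≤ β := by nlinarith
  have b2 : β ≤ 1.73 := by nlinarith
  refine isSingular_of_quartic (y' := 1 - y) (D := 2 * y - 1) 1 (-1) (by linarith)
    (by push_cast; linarith) (by push_cast; rfl) (by linarith) (by nlinarith) (by nlinarith) ?_
  have : (2 * y - 1) ^ 2 = 13 := by linarith
  rw [this]
  nlinarith

theorem isSingular_two {β : ℝ} (h1 : 1 < β)
    (hP : β ^ 4 - 2 * β ^ 3 + β ^ 2 - 2 * β + 1 = 0) : IsSingular (bernoulliConv β⁻¹) := by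
  have hb : 0 < β := by linarith
  have hi : β * β⁻¹ = 1 := mul_inv_cancel₀ hb.ne'
  have hi0 : 0 < β⁻¹ := inv_pos.mpr hb
  have hi1 : β⁻¹ < 1 := inv_lt_one_of_one_lt₀ h1
  have hy : (β + β⁻¹) ^ 2 - 2 * (β + β⁻¹) - 1 = 0 := by
    field_simp
    linear_combination hP
  set y := β + β⁻¹ with hyd
  have y1 : 2.414 ≤ y := by nlinarith
  have y2 : y ≤ 2.415 := by nlinarith
  have b1 : 1.88 ≤ β := by nlinarith
  have b2 : β ≤ 1.89 := by nlinarith
  refine isSingular_of_quartic (y' := 2 - y) (D := 2 * y - 2) 2 1 (by linarith)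
    (by push_cast; linarith) (by push_cast; rfl) (by linarith) (by nlinarith) (by nlinarith) ?_
  have : (2 * y - 2) ^ 2 = 8 := by linarith
  rw [this]
  nlinarith

end Vale.Agent.P105
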