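import Mathlib

open MeasureTheory
open scoped ENNReal

namespace Vale.Agent.P105

/-- The law of a fair coin on `Bool`. -/
noncomputable def fairCoin : Measure Bool :=
  (1 / 2 : ℝ≥0∞) • Measure.dirac true + (1 / 2 : ℝ≥0∞) • Measure.dirac false

/-- The sign `+1` or `-1` attached to a coin outcome. -/
def coinSign (b : Bool) : ℝ := if b then 1 else -1

/-- The unbiased Bernoulli convolution: the law of the random series `∑ ε n * l ^ n` with
independent fair signs `ε n`. -/
noncomputable def bernoulliConv (l : ℝ) : Measure ℝ :=
  (Measure.infinitePi fun _ : ℕ => fairCoin).map fun ω => ∑' n : ℕ, coinSign (ω n) * l ^ n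

/-- A probability measure on the line is singular if it gives full mass to a Borel set of
Lebesgue measure zero. -/
def IsSingular (μ : Measure ℝ) : Prop :=
  ∃ A : Set ℝ, MeasurableSet A ∧ μ A = 1 ∧ volume A = 0

/-- A Pisot number: a real algebraic integer `b > 1` all of whose other Galois conjugates have
modulus less than one. -/
def IsPisot (b : ℝ) : Prop :=
  1 < b ∧ IsIntegral ℤ b ∧ ∀ z ∈ (minpoly ℚ b).aroots ℂ, z ≠ (b : ℂ) → ‖z‖ < 1

end Vale.Agent.P105
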