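import Vale.Agent.P105.Fourier

open MeasureTheory ProbabilityTheory Filter Topology Finset
open scoped ENNReal

namespace Vale.Agent.P105

/-- trigonometric test statistic -/
noncomputable def stat (n : ℕ) (c ξ : ℕ → ℝ) (x : ℝ) : ℝ :=
  ∑ i ∈ range n, c i * Real.cos (ξ i * x)

lemma continuous_stat (n : ℕ) (c ξ : ℕ → ℝ) : Continuous (stat n c ξ) := by
  unfold stat; fun_prop

lemma integrable_cos (μ : Measure ℝ) [IsProbabilityMeasure μ] (t : ℝ) :
    Integrable (fun x => Real.cos (t * x)) μ :=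
  Integrable.of_bound (C := 1) (by fun_prop) (ae_of_all _ fun _ => Real.abs_cos_le_one _)

lemma abs_cosT_le (μ : Measure ℝ) [IsProbabilityMeasure μ] (t : ℝ) : |cosT μ t| ≤ 1 := by
  have := norm_integral_le_of_norm_le_const (μ := μ) (f := fun x => Real.cos (t * x)) (C := 1)
    (ae_of_all _ fun _ => Real.abs_cos_le_one _)
  simpa [cosT] using this

lemma integrable_stat (μ : Measure ℝ) [IsProbabilityMeasure μ] (n : ℕ) (c ξ : ℕ → ℝ) :
    Integrable (stat n c ξ) μ :=
  integrable_finsetSum _ fun i _ => (integrable_cos μ (ξ i)).const_mul _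

lemma integral_stat (μ : Measure ℝ) [IsProbabilityMeasure μ] (n : ℕ) (c ξ : ℕ → ℝ) :
    ∫ x, stat n c ξ x ∂μ = ∑ i ∈ range n, c i * cosT μ (ξ i) := by
  unfold stat cosT
  rw [integral_finsetSum _ fun i _ => (integrable_cos μ (ξ i)).const_mul _]
  simp_rw [integral_const_mul]

lemma stat_sq (n : ℕ) (c ξ : ℕ → ℝ) (x : ℝ) : stat n c ξ x ^ 2 =
    ∑ i ∈ range n, ∑ j ∈ range n, c i * c j / 2 *
      (Real.cos ((ξ i - ξ j) * x) + Real.cos ((ξ i + ξ j) * x)) := by
  unfold stat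
  rw [sq, Finset.sum_mul_sum]
  refine Finset.sum_congr rfl fun i _ => Finset.sum_congr rfl fun j _ => ?_
  rw [sub_mul, add_mul, Real.cos_sub, Real.cos_add]
  ring

lemma integrable_term (μ : Measure ℝ) [IsProbabilityMeasure μ] (a s t : ℝ) :
    Integrable (fun x => a * (Real.cos (s * x) + Real.cos (t * x))) μ :=
  ((integrable_cos μ _).add (integrable_cos μ _)).const_mul _

lemma integrable_stat_sq (μ : Measure ℝ) [IsProbabilityMeasure μ] (n : ℕ) (c ξ : ℕ → ℝ) :
    Integrable (fun x => stat n c ξ x ^ 2) μ := by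
  simp_rw [stat_sq]
  exact integrable_finsetSum _ fun i _ => integrable_finsetSum _ fun j _ =>
    integrable_term μ _ _ _

lemma integral_stat_sq_le (μ : Measure ℝ) [IsProbabilityMeasure μ] (n : ℕ) (c ξ : ℕ → ℝ)
    (hc : ∀ i, |c i| = 1) (b : ℕ → ℕ → ℝ) (hb0 : ∀ i j, 0 ≤ b i j)
    (hb : ∀ i < n, ∀ j < n, i ≠ j → |cosT μ (ξ i - ξ j)| ≤ b i j ∧ |cosT μ (ξ i + ξ j)| ≤ b i j) :
    ∫ x, stat n c ξ x ^ 2 ∂μ ≤ n + ∑ i ∈ range n, ∑ j ∈ range n, b i j := by
  simp_rw [stat_sq]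
  rw [integral_finsetSum _ fun i _ => integrable_finsetSum _ fun j _ =>
    integrable_term μ _ _ _]
  have h1 : (n : ℝ) = ∑ i ∈ range n, ∑ j ∈ range n, if i = j then (1 : ℝ) else 0 := by
    rw [Finset.sum_congr rfl (g := fun _ => (1 : ℝ))]
    · simp
    · intro i hi
      simp [Finset.mem_range.mp hi]
  rw [h1, ← Finset.sum_add_distrib]
  refine Finset.sum_le_sum fun i hi => ?_
  rw [integral_finsetSum _ fun j _ => integrable_term μ _ _ _, ← Finset.sum_add_distrib]
  refine Finset.sum_le_sum fun j hj => ?_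
  rw [integral_const_mul, integral_add (integrable_cos μ _) (integrable_cos μ _)]
  change c i * c j / 2 * (cosT μ (ξ i - ξ j) + cosT μ (ξ i + ξ j)) ≤ _
  have h2 : c i * c j / 2 * (cosT μ (ξ i - ξ j) + cosT μ (ξ i + ξ j))
      ≤ (|cosT μ (ξ i - ξ j)| + |cosT μ (ξ i + ξ j)|) / 2 := by
    refine (le_abs_self _).trans ?_
    rw [abs_mul, abs_div, abs_mul, hc, hc, abs_two]
    have := abs_add_le (cosT μ (ξ i - ξ j)) (cosT μ (ξ i + ξ j))
    linarith
  refine h2.trans ?_
  split_ifs with h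
  · have := abs_cosT_le μ (ξ i - ξ j)
    have := abs_cosT_le μ (ξ i + ξ j)
    have := hb0 i j
    linarith
  · have := hb i (Finset.mem_range.mp hi) j (Finset.mem_range.mp hj) h
    linarith [this.1, this.2]

lemma exp_neg_sq_le {t a : ℝ} (ha : 0 < a) (h : a ≤ |t|) : Real.exp (-(t ^ 2 / 2)) ≤ 2 / a ^ 2 := by
  have h1 : a ^ 2 ≤ t ^ 2 := by
    rw [← sq_abs t]; exact pow_le_pow_left₀ ha.le h 2
  have h2 : t ^ 2 / 2 + 1 ≤ Real.exp (t ^ 2 / 2) := Real.add_one_le_exp _
  rw [Real.exp_neg, inv_eq_one_div, div_le_div_iff₀ (Real.exp_pos _) (by positivity)]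
  nlinarith

theorem exists_test (μ : Measure ℝ) [IsProbabilityMeasure μ] (n : ℕ) (hn : 0 < n) (ξ : ℕ → ℝ)
    (m η : ℝ) (hm : 0 < m) (hη : 0 ≤ η)
    (h1 : ∀ i < n, m ≤ |cosT μ (ξ i)|)
    (h2 : ∀ i < n, ∀ j < n, i ≠ j →
      |cosT μ (ξ i - ξ j)| ≤ (1 + η) * (|cosT μ (ξ i)| * |cosT μ (ξ j)|) ∧
      |cosT μ (ξ i + ξ j)| ≤ (1 + η) * (|cosT μ (ξ i)| * |cosT μ (ξ j)|))
    (h3 : ∀ i < n, ∀ j < n, i ≠ j → (n : ℝ) ≤ |ξ i - ξ j| ∧ (n : ℝ) ≤ |ξ i + ξ j|) :
    ∃ A : Set ℝ, MeasurableSet A ∧ μ.real Aᶜ ≤ 4 * (η + 1 / (n * m ^ 2)) ∧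
      (gaussianReal 0 1).real A ≤ 12 * (1 / (n * m ^ 2)) := by
  classical
  set c : ℕ → ℝ := fun i => if 0 ≤ cosT μ (ξ i) then 1 else -1 with hc
  have hc1 : ∀ i, |c i| = 1 := fun i => by
    simp only [hc]; split_ifs <;> simp
  have hc2 : ∀ i, c i * cosT μ (ξ i) = |cosT μ (ξ i)| := fun i => by
    simp only [hc]; split_ifs with h
    · rw [abs_of_nonneg h, one_mul]
    · rw [abs_of_neg (not_le.mp h)]; ring
  set S : ℝ := ∑ i ∈ range n, |cosT μ (ξ i)| with hS
  have hnR : (0 : ℝ) < n := by exact_mod_cast hn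
  have hSge : n * m ≤ S := by
    have : ∑ _i ∈ range n, m ≤ S := Finset.sum_le_sum fun i hi => h1 i (Finset.mem_range.mp hi)
    simpa using this
  have hS0 : 0 < S := lt_of_lt_of_le (by positivity) hSge
  have hkey : (n : ℝ) / S ^ 2 ≤ 1 / (n * m ^ 2) := by
    rw [div_le_div_iff₀ (by positivity) (by positivity)]
    have : (n * m) ^ 2 ≤ S ^ 2 := pow_le_pow_left₀ (by positivity) hSge 2
    nlinarith
  have hcont := continuous_stat n c ξ
  refine ⟨{x | S / 2 ≤ stat n c ξ x}, measurableSet_le measurable_const hcont.measurable, ?_, ?_⟩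
  · have hmean : ∫ x, stat n c ξ x ∂μ = S := by
      rw [integral_stat]; exact Finset.sum_congr rfl fun i _ => hc2 i
    have hsq := integral_stat_sq_le μ n c ξ hc1
      (fun i j => (1 + η) * (|cosT μ (ξ i)| * |cosT μ (ξ j)|)) (fun i j => by positivity) h2
    have hsum : ∑ i ∈ range n, ∑ j ∈ range n, (1 + η) * (|cosT μ (ξ i)| * |cosT μ (ξ j)|)
        = (1 + η) * S ^ 2 := by
      rw [hS, sq, Finset.sum_mul_sum, Finset.mul_sum]
      refine Finset.sum_congr rfl fun i _ => ?_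
      rw [Finset.mul_sum]
    rw [hsum] at hsq
    have hint : Integrable (fun x => (stat n c ξ x - S) ^ 2) μ := by
      have : (fun x => (stat n c ξ x - S) ^ 2)
          = fun x => stat n c ξ x ^ 2 - 2 * S * stat n c ξ x + S ^ 2 := by
        funext x; ring
      rw [this]
      exact ((integrable_stat_sq μ n c ξ).sub ((integrable_stat μ n c ξ).const_mul _)).add
        (integrable_const _)
    have hvar : ∫ x, (stat n c ξ x - S) ^ 2 ∂μ ≤ n + η * S ^ 2 := by
      have : (fun x => (stat n c ξ x - S) ^ 2)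
          = fun x => stat n c ξ x ^ 2 - 2 * S * stat n c ξ x + S ^ 2 := by
        funext x; ring
      have hI : Integrable (fun x => stat n c ξ x ^ 2 - 2 * S * stat n c ξ x) μ :=
        (integrable_stat_sq μ n c ξ).sub ((integrable_stat μ n c ξ).const_mul _)
      rw [this, integral_add hI (integrable_const _),
        integral_sub (integrable_stat_sq μ n c ξ) ((integrable_stat μ n c ξ).const_mul _),
        integral_const_mul, hmean]
      simp only [integral_const, probReal_univ, smul_eq_mul, one_mul]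
      nlinarith
    have hmk := mul_meas_ge_le_integral_of_nonneg (μ := μ)
      (f := fun x => (stat n c ξ x - S) ^ 2) (ae_of_all _ fun x => sq_nonneg _) hint (S ^ 2 / 4)
    have hsub : {x | S / 2 ≤ stat n c ξ x}ᶜ ⊆ {x | S ^ 2 / 4 ≤ (stat n c ξ x - S) ^ 2} := by
      intro x hx
      simp only [Set.mem_compl_iff, Set.mem_ofPred_eq, not_le] at hx ⊢
      nlinarith
    have hle := measureReal_mono (μ := μ) hsub
    have h4 : S ^ 2 / 4 * μ.real {x | S / 2 ≤ stat n c ξ x}ᶜ ≤ n + η * S ^ 2 :=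
      (mul_le_mul_of_nonneg_left hle (by positivity)).trans (hmk.trans hvar)
    have h5 : μ.real {x | S / 2 ≤ stat n c ξ x}ᶜ ≤ 4 * (η + n / S ^ 2) := by
      have : 4 * (η + n / S ^ 2) = (n + η * S ^ 2) / (S ^ 2 / 4) := by field_simp; ring
      rw [this, le_div_iff₀ (by positivity)]
      linarith
    linarith
  · have hsq := integral_stat_sq_le (gaussianReal 0 1) n c ξ hc1
      (fun _ _ => 2 / (n : ℝ) ^ 2) (fun i j => by positivity) (fun i hi j hj hij => by
        rw [cosT_gaussian, cosT_gaussian, abs_of_pos (Real.exp_pos _), abs_of_pos (Real.exp_pos _)]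
        exact ⟨exp_neg_sq_le hnR (h3 i hi j hj hij).1, exp_neg_sq_le hnR (h3 i hi j hj hij).2⟩)
    have hsum : ∑ _i ∈ range n, ∑ _j ∈ range n, 2 / (n : ℝ) ^ 2 = 2 := by
      simp only [Finset.sum_const, Finset.card_range, nsmul_eq_mul]
      field_simp
    rw [hsum] at hsq
    have hmk := mul_meas_ge_le_integral_of_nonneg (μ := gaussianReal 0 1)
      (f := fun x => stat n c ξ x ^ 2) (ae_of_all _ fun x => sq_nonneg _)
      (integrable_stat_sq _ n c ξ) (S ^ 2 / 4)
    have hsub : {x | S / 2 ≤ stat n c ξ x} ⊆ {x | S ^ 2 / 4 ≤ stat n c ξ x ^ 2} := by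
      intro x hx
      simp only [Set.mem_ofPred_eq] at hx ⊢
      nlinarith
    have hle := measureReal_mono (μ := gaussianReal 0 1) hsub
    have hn1 : (1 : ℝ) ≤ n := by exact_mod_cast hn
    have h4 : S ^ 2 / 4 * (gaussianReal 0 1).real {x | S / 2 ≤ stat n c ξ x} ≤ 3 * n :=
      (mul_le_mul_of_nonneg_left hle (by positivity)).trans (hmk.trans (by linarith))
    have h5 : (gaussianReal 0 1).real {x | S / 2 ≤ stat n c ξ x} ≤ 12 * (n / S ^ 2) := by
      have : 12 * (n / S ^ 2) = (3 * n) / (S ^ 2 / 4) := by field_simp; ring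
      rw [this, le_div_iff₀ (by positivity)]
      linarith
    linarith

theorem isSingular_of_tests (μ : Measure ℝ) [IsProbabilityMeasure μ]
    (h : ∀ ε : ℝ, 0 < ε → ∃ A : Set ℝ, MeasurableSet A ∧ μ.real Aᶜ ≤ ε ∧
      (gaussianReal 0 1).real A ≤ ε) : IsSingular μ := by
  choose A hA using fun k : ℕ => h ((1 / 2) ^ k) (by positivity)
  have hsum : ∀ (ν : Measure ℝ) [IsProbabilityMeasure ν] (B : ℕ → Set ℝ),
      (∀ k, ν.real (B k) ≤ (1 / 2) ^ k) → ν (limsup B atTop) = 0 := by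
    intro ν _ B hB
    refine measure_limsup_atTop_eq_zero (ne_top_of_le_ne_top (b := ∑' k : ℕ,
      ENNReal.ofReal ((1 / 2 : ℝ) ^ k)) ?_ (ENNReal.tsum_le_tsum fun k => ?_))
    · exact (Summable.tsum_ofReal_ne_top summable_geometric_two)
    · rw [← ENNReal.ofReal_toReal (measure_ne_top ν (B k))]
      exact ENNReal.ofReal_le_ofReal (hB k)
  have hmeas : MeasurableSet (limsup A atTop) := MeasurableSet.measurableSet_limsup fun k => (hA k).1
  refine ⟨limsup A atTop, hmeas, ?_, ?_⟩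
  · rw [← prob_compl_eq_zero_iff hmeas]
    refine measure_mono_null ?_ (hsum μ (fun k => (A k)ᶜ) fun k => (hA k).2.1)
    intro x hx
    rw [Set.mem_compl_iff, mem_limsup_iff_frequently_mem, not_frequently] at hx
    rw [mem_limsup_iff_frequently_mem]
    exact hx.frequently
  · exact gaussianReal_absolutelyContinuous' 0 one_ne_zero
      (hsum _ A fun k => (hA k).2.2)

end Vale.Agent.P105
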