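import Vale.Agent.P105.Iter
import Vale.Agent.P105.Moment

open Finset Real Filter Topology MeasureTheory ProbabilityTheory

namespace Vale.Agent.P105

lemma abs_cos_pi_mul (x : ℝ) : |cos (π * x)| = cos (π * dz x) := by
  have h1 : π * x = π * (x - round x) + ((round x : ℤ) : ℝ) * π := by ring
  have h2 : |((-1 : ℝ)) ^ (round x)| = 1 := by rw [abs_zpow]; simp
  rw [h1, cos_add_int_mul_pi, abs_mul, h2, one_mul]
  have h3 : cos (π * (x - round x)) = cos (π * dz x) := by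
    rw [← cos_abs (π * (x - round x)), abs_mul, abs_of_pos pi_pos]; rfl
  rw [h3, abs_of_nonneg]
  have := dz_nonneg x
  have := dz_le_half x
  apply cos_nonneg_of_neg_pi_div_two_le_of_le <;> nlinarith [pi_pos]

lemma abs_sin_pi_mul (x : ℝ) : |sin (π * x)| ≤ π * dz x := by
  have h1 : π * x = π * (x - round x) + ((round x : ℤ) : ℝ) * π := by ring
  have h2 : |((-1 : ℝ)) ^ (round x)| = 1 := by rw [abs_zpow]; simp
  rw [h1, sin_add_int_mul_pi, abs_mul, h2, one_mul]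
  refine abs_sin_le_abs.trans ?_
  rw [abs_mul, abs_of_pos pi_pos]; rfl

/-- the constant attached to a margin `r < 1 / 2` -/
noncomputable def Kc (r : ℝ) : ℝ := π ^ 2 / cos (π * r) ^ 2

variable {r : ℝ}

lemma cos_margin_pos (h0 : 0 ≤ r) (hr : r < 1 / 2) : 0 < cos (π * r) := by
  apply cos_pos_of_mem_Ioo
  constructor <;> nlinarith [pi_pos]

lemma one_le_Kc (h0 : 0 ≤ r) (hr : r < 1 / 2) : 1 ≤ Kc r := by
  have h := cos_margin_pos h0 hr
  unfold Kc
  rw [le_div_iff₀ (by positivity)]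
  nlinarith [cos_sq_le_one (π * r), pi_gt_three]

lemma margin_le (hr : r < 1 / 2) {x : ℝ} (hx : dz x ≤ r) : cos (π * r) ≤ |cos (π * x)| := by
  rw [abs_cos_pi_mul]
  have := dz_nonneg x
  apply cos_le_cos_of_nonneg_of_le_pi <;> nlinarith [pi_pos]

lemma sin_mul_sin_le (hr : r < 1 / 2) {x y : ℝ} (hx : dz x ≤ r) (hy : dz y ≤ r) :
    |sin (π * x)| * |sin (π * y)| ≤ |cos (π * x)| * |cos (π * y)| * (Kc r * (dz x * dz y)) := by
  have h0 : 0 ≤ r := (dz_nonneg x).trans hx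
  have hc := cos_margin_pos h0 hr
  have h1 := mul_le_mul (abs_sin_pi_mul x) (abs_sin_pi_mul y) (abs_nonneg _)
    (mul_nonneg pi_pos.le (dz_nonneg x))
  have h2 := mul_le_mul (margin_le hr hx) (margin_le hr hy) hc.le (abs_nonneg _)
  have h3 : π * dz x * (π * dz y) = cos (π * r) * cos (π * r) * (Kc r * (dz x * dz y)) := by
    unfold Kc; field_simp
  have h4 : 0 ≤ Kc r * (dz x * dz y) :=
    mul_nonneg (by linarith [one_le_Kc h0 hr]) (mul_nonneg (dz_nonneg x) (dz_nonneg y))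
  exact h1.trans (h3 ▸ mul_le_mul_of_nonneg_right h2 h4)

lemma exp_le_abs_cos (hr : r < 1 / 2) {x : ℝ} (hx : dz x ≤ r) :
    exp (-(Kc r * dz x ^ 2)) ≤ |cos (π * x)| := by
  have h1 := sin_mul_sin_le hr hx hx
  rw [abs_mul_abs_self, abs_mul_abs_self] at h1
  have h2 := sin_sq_add_cos_sq (π * x)
  have h3 := add_one_le_exp (Kc r * dz x ^ 2)
  have h4 : |cos (π * x)| * |cos (π * x)| ≤ |cos (π * x)| := by
    nlinarith [abs_cos_le_one (π * x), abs_nonneg (cos (π * x))]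
  rw [abs_mul_abs_self] at h4
  refine le_trans ?_ h4
  rw [exp_neg, inv_le_iff_one_le_mul₀ (exp_pos _)]
  have h5 := mul_le_mul_of_nonneg_left h3 (mul_self_nonneg (cos (π * x)))
  nlinarith

lemma abs_cos_pair_le (hr : r < 1 / 2) {x y : ℝ} (hx : dz x ≤ r) (hy : dz y ≤ r) {s : ℝ}
    (hs : s = 1 ∨ s = -1) :
    |cos (π * x + s * (π * y))| ≤ exp (Kc r * (dz x * dz y)) * (|cos (π * x)| * |cos (π * y)|) := by
  have h1 := sin_mul_sin_le hr hx hy
  have h2 : |cos (π * x + s * (π * y))|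
      ≤ |cos (π * x)| * |cos (π * y)| + |sin (π * x)| * |sin (π * y)| := by
    rw [← abs_mul, ← abs_mul]
    rcases hs with rfl | rfl
    · rw [one_mul, cos_add]; exact abs_sub _ _
    · rw [neg_one_mul, ← sub_eq_add_neg, cos_sub]; exact abs_add_le _ _
  have h3 := add_one_le_exp (Kc r * (dz x * dz y))
  have h4 : 0 ≤ |cos (π * x)| * |cos (π * y)| := by positivity
  nlinarith

variable {β θ z σ B φ : ℝ} {l : ℕ} {E ρ : ℝ}

lemma freq_mul (hβ : 3 / 2 ≤ β) (z : ℝ) (N n : ℕ) :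
    π * (z * β ^ N) * β⁻¹ ^ n = π * (z * β ^ ((N : ℤ) - n)) := by
  have hb : 0 < β := by linarith
  rw [zpow_sub₀ hb.ne', zpow_natCast, zpow_natCast, inv_pow]
  field_simp

lemma inv_nonneg' (hβ : 3 / 2 ≤ β) : 0 ≤ β⁻¹ := inv_nonneg.mpr (by linarith)

lemma inv_lt_one' (hβ : 3 / 2 ≤ β) : β⁻¹ < 1 := inv_lt_one_of_one_lt₀ (by linarith)

lemma Good.cosT_ge (hβ : 3 / 2 ≤ β) (hr : r < 1 / 2) (h : Good β θ z σ B φ l E r) (N : ℕ) :
    exp (-(Kc r * (2.03 * E + 35 * (B ^ 2 * N))))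
      ≤ |cosT (bernoulliConv β⁻¹) (π * (z * β ^ N))| := by
  have h0 : 0 ≤ r := (dz_nonneg _).trans (h.sup 0)
  refine ge_of_tendsto' (tendsto_cosT (inv_nonneg' hβ) (inv_lt_one' hβ) _).abs fun M => ?_
  simp only [freq_mul hβ]
  rw [Finset.abs_prod]
  refine le_trans ?_ (Finset.prod_le_prod (fun n _ => (exp_pos _).le)
    fun n _ => exp_le_abs_cos hr (h.sup ((N : ℤ) - n)))
  rw [← exp_sum, exp_le_exp, sum_neg_distrib, ← mul_sum, neg_le_neg_iff]
  exact mul_le_mul_of_nonneg_left (h.en_shift N M) (by linarith [one_le_Kc h0 hr])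

lemma Good.cosT_pair (hβ : 3 / 2 ≤ β) (hr : r < 1 / 2) (h : Good β θ z σ B φ l E r) (N N' : ℕ)
    {η : ℝ} (hη : ∀ M : ℕ, ∑ n ∈ range M,
      dz (z * β ^ ((N : ℤ) - n)) * dz (z * β ^ ((N' : ℤ) - n)) ≤ η) {s : ℝ} (hs : s = 1 ∨ s = -1) :
    |cosT (bernoulliConv β⁻¹) (π * (z * β ^ N) + s * (π * (z * β ^ N')))|
      ≤ exp (Kc r * η) * (|cosT (bernoulliConv β⁻¹) (π * (z * β ^ N))|
        * |cosT (bernoulliConv β⁻¹) (π * (z * β ^ N'))|) := by
  have h0 : 0 ≤ r := (dz_nonneg _).trans (h.sup 0)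
  have t := fun t => (tendsto_cosT (inv_nonneg' hβ) (inv_lt_one' hβ) t).abs
  refine le_of_tendsto_of_tendsto' (t _) (((t _).mul (t _)).const_mul _) fun M => ?_
  have e : ∀ n : ℕ, (π * (z * β ^ N) + s * (π * (z * β ^ N'))) * β⁻¹ ^ n
      = π * (z * β ^ ((N : ℤ) - n)) + s * (π * (z * β ^ ((N' : ℤ) - n))) := by
    intro n
    rw [← freq_mul hβ, ← freq_mul hβ]; ring
  simp only [e, freq_mul hβ]
  rw [Finset.abs_prod, Finset.abs_prod, Finset.abs_prod]
  refine (Finset.prod_le_prod (s := range M) (fun n _ => abs_nonneg _)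
    fun (n : ℕ) _ => abs_cos_pair_le hr (h.sup ((N : ℤ) - n)) (h.sup ((N' : ℤ) - n)) hs).trans ?_
  rw [prod_mul_distrib, prod_mul_distrib, ← exp_sum, ← mul_sum]
  refine mul_le_mul_of_nonneg_right (exp_le_exp.mpr ?_) ?_
  · exact mul_le_mul_of_nonneg_left (hη M) (by linarith [one_le_Kc h0 hr])
  · exact mul_nonneg (prod_nonneg fun _ _ => abs_nonneg _) (prod_nonneg fun _ _ => abs_nonneg _)

lemma Good.cross (hβ : 3 / 2 ≤ β) (h : Good β θ z σ B φ l E ρ) (N N' w : ℕ) (hN : N + 2 * w ≤ N')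
    {τ a : ℝ} (ha : 0 < a) (hτ : z * β ^ (-(w : ℤ)) ≤ τ) (M : ℕ) :
    ∑ n ∈ range M, dz (z * β ^ ((N : ℤ) - n)) * dz (z * β ^ ((N' : ℤ) - n))
      ≤ a * (2.03 * E + 35 * (B ^ 2 * N)) / 2 + (N + w) * ((τ + |B|) ^ 2 / (2 * a)) + 3 * τ := by
  have hb : 0 < β := by linarith
  have hz : 0 < z := by linarith [h.low]
  have hτ0 : 0 ≤ τ := le_trans (by positivity) hτ
  have h1 : ∑ n ∈ range M, dz (z * β ^ ((N : ℤ) - n)) * dz (z * β ^ ((N' : ℤ) - n))
      ≤ ∑ n ∈ range (N + w + M), dz (z * β ^ ((N : ℤ) - n)) * dz (z * β ^ ((N' : ℤ) - n)) :=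
    sum_le_sum_of_subset_of_nonneg (range_subset_range.mpr (Nat.le_add_left _ _))
      fun _ _ _ => mul_nonneg (dz_nonneg _) (dz_nonneg _)
  rw [sum_range_add] at h1
  have h2 : ∑ n ∈ range (N + w), dz (z * β ^ ((N : ℤ) - n)) * dz (z * β ^ ((N' : ℤ) - n))
      ≤ ∑ n ∈ range (N + w), (a / 2 * dz (z * β ^ ((N : ℤ) - n)) ^ 2
        + (τ + |B|) ^ 2 / (2 * a)) := by
    refine sum_le_sum fun n hn => ?_
    have hn' := mem_range.mp hn
    have h3 : dz (z * β ^ ((N' : ℤ) - n)) ≤ τ + |B| := by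
      refine (h.refl _).trans (add_le_add ((dz_le_abs _).trans ?_) le_rfl)
      rw [abs_of_pos (by positivity)]
      refine le_trans (mul_le_mul_of_nonneg_left ?_ hz.le) hτ
      exact zpow_le_zpow_right₀ (by linarith) (by omega)
    refine (mul_le_mul_of_nonneg_left h3 (dz_nonneg _)).trans ?_
    generalize dz (z * β ^ ((N : ℤ) - n)) = u
    generalize τ + |B| = v
    have : a / 2 * u ^ 2 + v ^ 2 / (2 * a) - u * v = (a * u - v) ^ 2 / (2 * a) := by
      field_simp; ring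
    have h5 : 0 ≤ (a * u - v) ^ 2 / (2 * a) := by positivity
    linarith
  rw [sum_add_distrib, ← mul_sum, sum_const, card_range, nsmul_eq_mul] at h2
  have h3 := mul_le_mul_of_nonneg_left (h.en_shift N (N + w)) (show 0 ≤ a / 2 by positivity)
  have h4 : ∑ n ∈ range M, dz (z * β ^ ((N : ℤ) - ((N + w + n : ℕ) : ℤ)))
      * dz (z * β ^ ((N' : ℤ) - ((N + w + n : ℕ) : ℤ))) ≤ ∑ n ∈ range M, τ * β ^ (-(n : ℤ)) := by
    refine sum_le_sum fun n _ => ?_
    have h5 : dz (z * β ^ ((N : ℤ) - ((N + w + n : ℕ) : ℤ))) ≤ τ * β ^ (-(n : ℤ)) := by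
      refine (dz_le_abs _).trans ?_
      rw [abs_of_pos (by positivity),
        show (N : ℤ) - ((N + w + n : ℕ) : ℤ) = -(w : ℤ) + -(n : ℤ) by push_cast; ring,
        zpow_add₀ hb.ne', ← mul_assoc]
      exact mul_le_mul_of_nonneg_right hτ (by positivity)
    have h6 := dz_le_half (z * β ^ ((N' : ℤ) - ((N + w + n : ℕ) : ℤ)))
    have h7 := dz_nonneg (z * β ^ ((N : ℤ) - ((N + w + n : ℕ) : ℤ)))
    have h8 := dz_nonneg (z * β ^ ((N' : ℤ) - ((N + w + n : ℕ) : ℤ)))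
    nlinarith
  rw [← mul_sum] at h4
  have h5 := mul_le_mul_of_nonneg_left (geom_bound hβ M) hτ0
  push_cast at h2
  linarith

lemma freq_sep (hβ : 3 / 2 ≤ β) (hz : 1 / 8 ≤ z) {N N' : ℕ} (hN : N < N') :
    3 / 32 * (N : ℝ) ≤ π * (z * β ^ N') - π * (z * β ^ N) := by
  have h1 : 1 + (N : ℝ) * (β - 1) ≤ β ^ N := by
    have := one_add_mul_le_pow (a := β - 1) (by linarith) N
    simpa using this
  have h2 : β ^ (N + 1) ≤ β ^ N' := pow_le_pow_right₀ (by linarith) hN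
  rw [pow_succ] at h2
  have hN0 : (0 : ℝ) ≤ N := Nat.cast_nonneg _
  have h3 : (N : ℝ) / 2 ≤ β ^ N := by nlinarith
  have h4 : (N : ℝ) / 4 ≤ β ^ N' - β ^ N := by nlinarith
  have h5 : (N : ℝ) / 32 ≤ z * (β ^ N' - β ^ N) := by nlinarith
  have h6 := pi_gt_three
  nlinarith

set_option maxHeartbeats 1600000 in
theorem Inv.test (hβ : 3 / 2 ≤ β) (hr : r < 1 / 2) {L : ℝ} (hL : 10000 ≤ L)
    (h : Inv β θ L (1 / (20 * Kc r) * L) r) :
    ∃ A : Set ℝ, MeasurableSet A ∧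
      (bernoulliConv β⁻¹).real Aᶜ ≤ 4 * ((exp (Kc r * ((L + 61) * exp (-(0.25 * L)))) - 1)
        + exp (70 * Kc r - 0.25 * L)) ∧
      (gaussianReal 0 1).real A ≤ 12 * exp (70 * Kc r - 0.25 * L) := by
  obtain ⟨z, σ, B, φ, l, ρ, hG0, hB, hl, hρ⟩ := h
  have hG := hG0.mono le_rfl (show ρ ≤ r by linarith [exp_pos (-(0.7 * L))])
  have h0 : 0 ≤ r := (dz_nonneg _).trans (hG.sup 0)
  have hK := one_le_Kc h0 hr
  set E := 1 / (20 * Kc r) * L with hE
  have hKE : Kc r * E = L / 20 := by rw [hE]; field_simp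
  have hE0 := hG.E_nonneg
  have hEL : E ≤ L / 20 := by nlinarith
  have := bernoulliConv_prob (inv_nonneg' hβ) (inv_lt_one' hβ)
  set w : ℕ := ⌈3 * exp L⌉₊ with hw
  set n : ℕ := ⌈exp (0.5 * L)⌉₊ with hn
  have e1 : 1 ≤ exp L := one_le_exp (by linarith)
  have e2 : 1 ≤ exp (0.5 * L) := one_le_exp (by linarith)
  have hw1 : 3 * exp L ≤ w := Nat.le_ceil _
  have hw2 : (w : ℝ) ≤ 4 * exp L := by
    have : (w : ℝ) < 3 * exp L + 1 := Nat.ceil_lt_add_one (by positivity)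
    linarith
  have hn1 : exp (0.5 * L) ≤ n := Nat.le_ceil _
  have hn2 : (n : ℝ) ≤ 2 * exp (0.5 * L) := by
    have : (n : ℝ) < exp (0.5 * L) + 1 := Nat.ceil_lt_add_one (by positivity)
    linarith
  have hn0 : 0 < n := by
    have : (0 : ℝ) < n := by linarith
    exact_mod_cast this
  have hτ : z * β ^ (-(w : ℤ)) ≤ exp (-L) := by
    have h1 : exp (0.7 * L) ≤ exp L := exp_le_exp.mpr (by linarith)
    have := tiny_le hβ hG.up (a := 2 * exp L) (p := w) (by positivity) (by linarith)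
    refine this.trans (le_of_eq ?_)
    rw [exp_neg]; field_simp
  have hee : exp L * exp (0.5 * L) = exp (1.5 * L) := by rw [← exp_add]; congr 1; ring
  have hNle : ∀ i < n, ((2 * w * (i + 1) : ℕ) : ℝ) ≤ 16 * exp (1.5 * L) := by
    intro i hi
    have h1 : ((i + 1 : ℕ) : ℝ) ≤ n := by exact_mod_cast hi
    have h2 := mul_le_mul hw2 (h1.trans hn2) (by positivity) (by positivity)
    push_cast at h2 ⊢
    nlinarith
  have hB2 : B ^ 2 ≤ exp (-(2 * L)) := by
    have h1 : B ^ 2 ≤ exp (-L) ^ 2 := by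
      rw [← sq_abs]; exact pow_le_pow_left₀ (abs_nonneg _) hB 2
    rwa [sq (exp (-L)), ← exp_add, show -L + -L = -(2 * L) by ring] at h1
  have hBN : ∀ i < n, B ^ 2 * ((2 * w * (i + 1) : ℕ) : ℝ) ≤ 1 := by
    intro i hi
    have h1 := mul_le_mul hB2 (hNle i hi) (by positivity) (by positivity)
    have h2 : exp (-(2 * L)) * exp (1.5 * L) = exp (-(0.5 * L)) := by
      rw [← exp_add]; congr 1; ring
    have h3 := cexp_le (c := 16) (a := -(0.5 * L)) (b := 0) (by linarith)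
    rw [exp_zero] at h3
    nlinarith
  have hcross : ∀ i < n, ∀ j < n, i < j → ∀ M : ℕ, ∑ k ∈ range M,
      dz (z * β ^ (((2 * w * (i + 1) : ℕ) : ℤ) - k)) * dz (z * β ^ (((2 * w * (j + 1) : ℕ) : ℤ) - k))
      ≤ (L + 61) * exp (-(0.25 * L)) := by
    intro i hi j _ hij M
    refine (hG.cross hβ _ _ w (by nlinarith) (exp_pos (-(0.25 * L))) hτ M).trans ?_
    have ha := exp_pos (-(0.25 * L))
    have h1 : exp (-(0.25 * L)) * (2.03 * E + 35 * (B ^ 2 * ((2 * w * (i + 1) : ℕ) : ℝ))) / 2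
        ≤ (L + 18) * exp (-(0.25 * L)) := by
      have := hBN i hi
      nlinarith
    have h2 : (exp (-L) + |B|) ^ 2 ≤ 4 * exp (-(2 * L)) := by
      have h3 : (exp (-L) + |B|) ^ 2 ≤ (2 * exp (-L)) ^ 2 :=
        pow_le_pow_left₀ (by positivity) (by linarith) 2
      rwa [mul_pow, sq (exp (-L)), ← exp_add, show -L + -L = -(2 * L) by ring,
        show (2 : ℝ) ^ 2 = 4 by norm_num] at h3
    have h3 : (((2 * w * (i + 1) : ℕ) : ℝ) + w) ≤ 20 * exp (1.5 * L) := by
      have h4 : exp L ≤ exp (1.5 * L) := exp_le_exp.mpr (by linarith)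
      linarith [hNle i hi]
    have h4 : (((2 * w * (i + 1) : ℕ) : ℝ) + w) * ((exp (-L) + |B|) ^ 2 / (2 * exp (-(0.25 * L))))
        ≤ 40 * exp (-(0.25 * L)) := by
      rw [← mul_div_assoc, div_le_iff₀ (by positivity)]
      have h5 := mul_le_mul h3 h2 (by positivity) (by positivity)
      have h6 : exp (1.5 * L) * exp (-(2 * L)) = exp (-(0.25 * L)) * exp (-(0.25 * L)) := by
        rw [← exp_add, ← exp_add]; congr 1; ring
      nlinarith
    have h5 : exp (-L) ≤ exp (-(0.25 * L)) := exp_le_exp.mpr (by linarith)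
    linarith
  have hsep : ∀ i < n, ∀ j < n, i < j → (n : ℝ) ≤
      π * (z * β ^ (2 * w * (j + 1))) - π * (z * β ^ (2 * w * (i + 1))) := by
    intro i _ j _ hij
    have hw0 : 0 < w := by
      have : (0 : ℝ) < w := by linarith
      exact_mod_cast this
    refine le_trans ?_ (freq_sep hβ hG.low
      (Nat.mul_lt_mul_of_pos_left (by omega) (by omega)))
    have h1 := cexp_le (c := 4) (a := 0.5 * L) (b := L) (by linarith)
    have h2 : (0 : ℝ) ≤ i := Nat.cast_nonneg _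
    push_cast
    nlinarith
  have hpos : ∀ N : ℕ, 0 ≤ π * (z * β ^ N) := fun N => by
    have := hG.low
    have := pi_pos
    have : 0 < β := by linarith
    positivity
  obtain ⟨A, hA, h1, h2⟩ := exists_test (bernoulliConv β⁻¹) n hn0
    (fun i => π * (z * β ^ (2 * w * (i + 1)))) (exp (-(Kc r * (2.03 * E + 35))))
    (exp (Kc r * ((L + 61) * exp (-(0.25 * L)))) - 1) (exp_pos _)
    (by
      have : 0 ≤ Kc r * ((L + 61) * exp (-(0.25 * L))) := by positivity
      linarith [one_le_exp this])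
    (fun i hi => by
      refine le_trans (exp_le_exp.mpr ?_) (hG.cosT_ge hβ hr _)
      have := hBN i hi
      nlinarith)
    (fun i hi j hj hij => by
      have hη : ∀ M : ℕ, ∑ k ∈ range M, dz (z * β ^ (((2 * w * (i + 1) : ℕ) : ℤ) - k))
          * dz (z * β ^ (((2 * w * (j + 1) : ℕ) : ℤ) - k)) ≤ (L + 61) * exp (-(0.25 * L)) := by
        intro M
        rcases lt_or_gt_of_ne hij with h | h
        · exact hcross i hi j hj h M
        · simp_rw [mul_comm (dz (z * β ^ (((2 * w * (i + 1) : ℕ) : ℤ) - _)))]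
          exact hcross j hj i hi h M
      have a1 := hG.cosT_pair hβ hr _ _ hη (Or.inl rfl)
      have a2 := hG.cosT_pair hβ hr _ _ hη (Or.inr rfl)
      rw [one_mul] at a1
      rw [neg_one_mul, ← sub_eq_add_neg] at a2
      rw [add_sub_cancel]
      exact ⟨a2, a1⟩)
    (fun i hi j hj hij => by
      have p1 := hpos (2 * w * (i + 1))
      have p2 := hpos (2 * w * (j + 1))
      rcases lt_or_gt_of_ne hij with h | h
      · have := hsep i hi j hj h
        constructor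
        · rw [abs_sub_comm]; exact this.trans (le_abs_self _)
        · exact le_trans (by linarith) (le_abs_self _)
      · have := hsep j hj i hi h
        constructor
        · exact this.trans (le_abs_self _)
        · exact le_trans (by linarith) (le_abs_self _))
  have hfin : 1 / ((n : ℝ) * exp (-(Kc r * (2.03 * E + 35))) ^ 2)
      ≤ exp (70 * Kc r - 0.25 * L) := by
    rw [div_le_iff₀ (by positivity)]
    have h3 : exp (70 * Kc r - 0.25 * L) * (exp (0.5 * L) * exp (-(Kc r * (2.03 * E + 35))) ^ 2)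
        = exp (0.047 * L) := by
      rw [sq, ← exp_add, ← exp_add, ← exp_add]; congr 1; linear_combination (-4.06) * hKE
    have h4 : 1 ≤ exp (0.047 * L) := one_le_exp (by linarith)
    have h5 := mul_le_mul_of_nonneg_left (mul_le_mul_of_nonneg_right hn1
      (sq_nonneg (exp (-(Kc r * (2.03 * E + 35)))))) (exp_pos (70 * Kc r - 0.25 * L)).le
    linarith
  exact ⟨A, hA, by linarith, by linarith⟩

theorem isSingular_of_good (hβ : 3 / 2 ≤ β) {E₀ : ℝ} (hG : Good β θ z σ B φ 0 E₀ ρ)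
    (hB : |B| ≤ 1) (hρ : ρ < 1 / 2) : IsSingular (bernoulliConv β⁻¹) := by
  have := bernoulliConv_prob (inv_nonneg' hβ) (inv_lt_one' hβ)
  have h0 : 0 ≤ ρ := (dz_nonneg _).trans (hG.sup 0)
  set r := (ρ + 1 / 2) / 2 with hr
  have hr1 : r < 1 / 2 := by linarith
  have hK := one_le_Kc (show 0 ≤ r by linarith) hr1
  obtain ⟨L₀, E, hL₀, hI⟩ := inv_start (r := r) hβ hG hB (by linarith)
  refine isSingular_of_tests _ fun ε hε => ?_
  have t0 : Tendsto (fun L : ℝ => 0.25 * L) atTop atTop :=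
    tendsto_id.const_mul_atTop (by norm_num)
  have t1 : Tendsto (fun L : ℝ => exp (-(0.25 * L))) atTop (𝓝 0) :=
    tendsto_exp_neg_atTop_nhds_zero.comp t0
  have t2 : Tendsto (fun L : ℝ => (L + 61) * exp (-(0.25 * L))) atTop (𝓝 0) := by
    have h1 := ((tendsto_pow_mul_exp_neg_atTop_nhds_zero 1).comp t0).const_mul 4
    have h2 := h1.add (t1.const_mul 61)
    simp only [mul_zero, add_zero] at h2
    refine h2.congr fun L => ?_
    simp only [Function.comp, pow_one]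
    ring
  have t3 : Tendsto (fun L : ℝ => exp (70 * Kc r - 0.25 * L)) atTop (𝓝 0) := by
    have h1 := t1.const_mul (exp (70 * Kc r))
    rw [mul_zero] at h1
    refine h1.congr fun L => ?_
    rw [← exp_add]; rfl
  have t4 : Tendsto (fun L : ℝ => 4 * ((exp (Kc r * ((L + 61) * exp (-(0.25 * L)))) - 1)
      + exp (70 * Kc r - 0.25 * L))) atTop (𝓝 0) := by
    have h1 := (((continuous_exp.tendsto _).comp (t2.const_mul (Kc r))).sub_const 1).add t3
    have h2 := h1.const_mul 4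
    simpa using h2
  have t5 := t3.const_mul 12
  rw [mul_zero] at t5
  obtain ⟨X, hX⟩ := eventually_atTop.mp ((t4.eventually (ge_mem_nhds hε)).and
    ((t5.eventually (ge_mem_nhds hε)).and (eventually_ge_atTop 10000)))
  obtain ⟨L, hL, hI'⟩ := inv_small hβ hL₀ hI (δ := 1 / (20 * Kc r)) (by positivity) X
  obtain ⟨a1, a2, a3⟩ := hX L hL
  obtain ⟨A, hA, b1, b2⟩ := hI'.test hβ hr1 a3
  exact ⟨A, hA, b1.trans a1, b2.trans a2⟩

end Vale.Agent.P105
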