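import Vale.Agent.P105.Defs

open MeasureTheory ProbabilityTheory Filter Topology
open scoped ENNReal

namespace Vale.Agent.P105

instance fairCoin_prob : IsProbabilityMeasure fairCoin := by
  constructor
  simp [fairCoin, ENNReal.inv_two_add_inv_two]

lemma integral_fairCoin (f : Bool → ℂ) : ∫ b, f b ∂fairCoin = (f true + f false) / 2 := by
  unfold fairCoin
  rw [integral_add_measure]
  · simp only [integral_smul_measure, integral_dirac]
    simp
    ring
  · exact (integrable_dirac (by simp)).smul_measure (by simp)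
  · exact (integrable_dirac (by simp)).smul_measure (by simp)

/-- the coin sequence measure -/
noncomputable abbrev coins : Measure (ℕ → Bool) := Measure.infinitePi fun _ : ℕ => fairCoin

lemma abs_coinSign (b : Bool) : |coinSign b| = 1 := by
  cases b <;> simp [coinSign]

lemma measurable_coinSign : Measurable coinSign := measurable_of_finite _

lemma integral_cexp_sum (M : ℕ) (a : ℕ → ℝ) :
    ∫ ω, Complex.exp (((∑ n ∈ Finset.range M, coinSign (ω n) * a n : ℝ) : ℂ) * Complex.I) ∂coins
      = ((∏ n ∈ Finset.range M, Real.cos (a n) : ℝ) : ℂ) := by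
  have hind : iIndepFun (fun (i : Fin M) (ω : ℕ → Bool) => ω (i : ℕ)) coins :=
    (iIndepFun_infinitePi (P := fun _ : ℕ => fairCoin) (X := fun _ b => b)
      (fun _ => measurable_id)).precomp Fin.val_injective
  have key := hind.integral_fun_prod_comp (𝕜 := ℂ)
    (f := fun (i : Fin M) (b : Bool) => Complex.exp (((coinSign b * a i : ℝ) : ℂ) * Complex.I))
    (fun i => (measurable_pi_apply (i : ℕ)).aemeasurable)
    (fun i => (measurable_of_finite _).aestronglyMeasurable)
  have h1 : ∀ ω : ℕ → Bool,
      Complex.exp (((∑ n ∈ Finset.range M, coinSign (ω n) * a n : ℝ) : ℂ) * Complex.I)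
        = ∏ i : Fin M, Complex.exp (((coinSign (ω i) * a i : ℝ) : ℂ) * Complex.I) := by
    intro ω
    rw [← Complex.exp_sum, Finset.sum_range]
    congr 1
    push_cast
    rw [Finset.sum_mul]
  simp_rw [h1]
  rw [key, Finset.prod_range]
  push_cast
  refine Finset.prod_congr rfl fun i _ => ?_
  have h2 : ∫ ω : ℕ → Bool, Complex.exp (((coinSign (ω i) : ℝ) : ℂ) * (a i : ℂ) * Complex.I) ∂coins
      = ∫ b, Complex.exp (((coinSign b : ℝ) : ℂ) * (a i : ℂ) * Complex.I) ∂fairCoin := by
    have := (measurePreserving_eval_infinitePi (fun _ : ℕ => fairCoin) (i : ℕ))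
    rw [← this.map_eq, integral_map this.measurable.aemeasurable
      (measurable_of_finite _).aestronglyMeasurable]
  rw [h2, integral_fairCoin, Complex.cos]
  simp [coinSign]

lemma integral_cos_sum (M : ℕ) (a : ℕ → ℝ) :
    ∫ ω, Real.cos (∑ n ∈ Finset.range M, coinSign (ω n) * a n) ∂coins
      = ∏ n ∈ Finset.range M, Real.cos (a n) := by
  have h := integral_cexp_sum M a
  have hm : Measurable fun ω : ℕ → Bool => ∑ n ∈ Finset.range M, coinSign (ω n) * a n :=
    Finset.measurable_fun_sum _ fun n _ =>
      (measurable_coinSign.comp (measurable_pi_apply n)).mul_const _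
  have hint : Integrable (fun ω : ℕ → Bool =>
      Complex.exp (((∑ n ∈ Finset.range M, coinSign (ω n) * a n : ℝ) : ℂ) * Complex.I)) coins := by
    refine Integrable.of_bound (C := 1) ?_ (ae_of_all _ fun ω => ?_)
    · exact (Complex.measurable_exp.comp
        ((Complex.measurable_ofReal.comp hm).mul_const _)).aestronglyMeasurable
    rw [Complex.norm_exp_ofReal_mul_I]
  have h2 := integral_re hint
  rw [h] at h2
  simp only [RCLike.re_to_complex, Complex.exp_ofReal_mul_I_re, Complex.ofReal_re] at h2
  exact h2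

lemma summable_series {l : ℝ} (h0 : 0 ≤ l) (h1 : l < 1) (ω : ℕ → Bool) :
    Summable fun n : ℕ => coinSign (ω n) * l ^ n := by
  refine Summable.of_norm_bounded (summable_geometric_of_lt_one h0 h1) fun n => ?_
  rw [Real.norm_eq_abs, abs_mul, abs_coinSign, one_mul, abs_of_nonneg (pow_nonneg h0 n)]

lemma measurable_partial (l : ℝ) (M : ℕ) :
    Measurable fun ω : ℕ → Bool => ∑ n ∈ Finset.range M, coinSign (ω n) * l ^ n :=
  Finset.measurable_fun_sum _ fun n _ =>
    (measurable_coinSign.comp (measurable_pi_apply n)).mul_const _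

lemma measurable_series {l : ℝ} (h0 : 0 ≤ l) (h1 : l < 1) :
    Measurable fun ω : ℕ → Bool => ∑' n : ℕ, coinSign (ω n) * l ^ n := by
  refine measurable_of_tendsto_metrizable (f := fun M ω => ∑ n ∈ Finset.range M,
    coinSign (ω n) * l ^ n) (measurable_partial l) ?_
  rw [tendsto_pi_nhds]
  intro ω
  exact (summable_series h0 h1 ω).hasSum.tendsto_sum_nat

lemma bernoulliConv_prob {l : ℝ} (h0 : 0 ≤ l) (h1 : l < 1) :
    IsProbabilityMeasure (bernoulliConv l) :=
  Measure.isProbabilityMeasure_map (measurable_series h0 h1).aemeasurable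

/-- cosine transform of a measure -/
noncomputable def cosT (μ : Measure ℝ) (t : ℝ) : ℝ := ∫ x, Real.cos (t * x) ∂μ

lemma tendsto_cosT {l : ℝ} (h0 : 0 ≤ l) (h1 : l < 1) (t : ℝ) :
    Tendsto (fun M => ∏ n ∈ Finset.range M, Real.cos (t * l ^ n)) atTop
      (𝓝 (cosT (bernoulliConv l) t)) := by
  unfold cosT bernoulliConv
  rw [integral_map (measurable_series h0 h1).aemeasurable (by fun_prop)]
  simp_rw [← integral_cos_sum]
  refine tendsto_integral_of_dominated_convergence (fun _ => 1) (fun M => ?_)
    (integrable_const _) (fun M => ae_of_all _ fun ω => ?_) (ae_of_all _ fun ω => ?_)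
  · refine Measurable.aestronglyMeasurable (Real.measurable_cos.comp ?_)
    exact Finset.measurable_fun_sum _ fun n _ =>
      (measurable_coinSign.comp (measurable_pi_apply n)).mul_const _
  · exact Real.abs_cos_le_one _
  · have := ((summable_series h0 h1 ω).hasSum.tendsto_sum_nat).const_mul t
    refine (Real.continuous_cos.tendsto _).comp ?_
    refine this.congr fun M => ?_
    rw [Finset.mul_sum]
    exact Finset.sum_congr rfl fun n _ => by ring

lemma cosT_gaussian (t : ℝ) : cosT (gaussianReal 0 1) t = Real.exp (-(t ^ 2 / 2)) := by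
  have h := charFun_gaussianReal (μ := 0) (v := 1) t
  rw [charFun_apply_real] at h
  have hint : Integrable (fun x : ℝ => Complex.exp (t * x * Complex.I)) (gaussianReal 0 1) := by
    refine Integrable.of_bound (C := 1) (by fun_prop) (ae_of_all _ fun x => ?_)
    rw [← Complex.ofReal_mul, Complex.norm_exp_ofReal_mul_I]
  have h2 := integral_re hint
  rw [h] at h2
  unfold cosT
  have h3 : ∀ x : ℝ, RCLike.re (Complex.exp (t * x * Complex.I)) = Real.cos (t * x) := by
    intro x
    rw [← Complex.ofReal_mul, RCLike.re_to_complex, Complex.exp_ofReal_mul_I_re]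
  simp_rw [h3] at h2
  rw [h2]
  have : (t : ℂ) * ((0 : ℝ) : ℂ) * Complex.I - (((1 : NNReal) : ℝ) : ℂ) * (t : ℂ) ^ 2 / 2
      = ((-(t ^ 2 / 2) : ℝ) : ℂ) := by
    push_cast; ring
  rw [this, ← Complex.ofReal_exp]
  simp only [RCLike.re_to_complex, Complex.ofReal_re]

end Vale.Agent.P105
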