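import Vale.Agent.P105.Step

open Finset Real Filter Topology

namespace Vale.Agent.P105

lemma cexp_le {c a b : ℝ} (h : c ≤ 1 + (b - a)) : c * exp a ≤ exp b := by
  have h1 : exp b = exp (b - a) * exp a := by rw [← exp_add]; congr 1; ring
  rw [h1]
  exact mul_le_mul_of_nonneg_right (h.trans (by linarith [add_one_le_exp (b - a)])) (exp_pos _).le

/-- the invariant of the iteration -/
def Inv (β θ L E r : ℝ) : Prop :=
  ∃ (z σ B φ : ℝ) (l : ℕ) (ρ : ℝ), Good β θ z σ B φ l E ρ ∧ |B| ≤ exp (-L) ∧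
    (l : ℝ) ≤ exp (0.7 * L) ∧ ρ + 6 * exp (-(0.7 * L)) ≤ r

variable {β θ L E r : ℝ}

lemma Inv.mono (h : Inv β θ L E r) {E' : ℝ} (hE : E ≤ E') : Inv β θ L E' r := by
  obtain ⟨z, σ, B, φ, l, ρ, hG, h1, h2, h3⟩ := h
  exact ⟨z, σ, B, φ, l, ρ, hG.mono hE le_rfl, h1, h2, h3⟩

theorem Inv.step (hβ : 3 / 2 ≤ β) (hL : 10000 ≤ L) (h : Inv β θ L E r) :
    ∃ L', 2.2 * L ≤ L' ∧ Inv β θ L' (2.1 * E + 142) r := by
  obtain ⟨z, σ, B, φ, l, ρ, hG, hB, hl, hρ⟩ := h
  set T : ℕ := ⌊exp (2 * L)⌋₊ with hT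
  set P : ℕ := ⌈2 * exp (0.7 * L)⌉₊ with hP
  have e1 : 1 ≤ exp (0.7 * L) := one_le_exp (by linarith)
  have hT1 : (T : ℝ) ≤ exp (2 * L) := Nat.floor_le (exp_pos _).le
  have hT2 : exp (2 * L) / 2 ≤ T := by
    have h1 := Nat.lt_floor_add_one (exp (2 * L))
    have h2 : 2 ≤ exp (2 * L) := by linarith [add_one_le_exp (2 * L)]
    linarith
  have hT0 : (0 : ℝ) < T := lt_of_lt_of_le (by positivity) hT2
  have hTinv : 1 / (T : ℝ) ≤ 2 * exp (-(2 * L)) := by
    rw [exp_neg, div_le_iff₀ hT0]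
    have := exp_pos (2 * L)
    rw [mul_assoc, ← div_eq_inv_mul, ← mul_div_assoc, le_div_iff₀ this]
    linarith
  have hP1 : 2 * exp (0.7 * L) ≤ P := Nat.le_ceil _
  have hP2 : (P : ℝ) ≤ 3 * exp (0.7 * L) := by
    have : (P : ℝ) < 2 * exp (0.7 * L) + 1 := Nat.ceil_lt_add_one (by positivity)
    linarith
  obtain ⟨p, k, hPp, hcase⟩ := dirichlet θ T P (by exact_mod_cast hT0)
  have hPpR : (P : ℝ) ≤ p := by exact_mod_cast hPp
  have hp2 : 2 ≤ p := by
    have : (2 : ℝ) ≤ p := by linarith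
    exact_mod_cast this
  have hτ : z * β ^ (-(p : ℤ)) ≤ 2 * exp (-(0.7 * L)) := by
    have := tiny_le hβ hG.up (a := exp (0.7 * L)) (p := p) (exp_pos _) (by linarith)
    rwa [exp_neg, ← div_eq_mul_inv]
  have hτ1 : 2 * exp (-(0.7 * L)) ≤ 1 := by
    have := cexp_le (c := 2) (a := -(0.7 * L)) (b := 0) (by linarith)
    simpa using this
  have hstep := hG.step hβ p hp2 hτ hτ1
  have hpT : (p : ℝ) ≤ exp (2 * L) := by
    rcases hcase with ⟨h1, -⟩ | ⟨h1, -⟩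
    · have : (p : ℝ) ≤ T := by exact_mod_cast h1
      linarith
    · have : (p : ℝ) ≤ 2 * P := by exact_mod_cast h1
      have := cexp_le (c := 6) (a := 0.7 * L) (b := 2 * L) (by linarith)
      linarith
  have hB2 : B ^ 2 * p ≤ 1 := by
    have h1 : B ^ 2 ≤ exp (-L) ^ 2 := by
      rw [← sq_abs]; exact pow_le_pow_left₀ (abs_nonneg _) hB 2
    have h2 : exp (-L) ^ 2 * exp (2 * L) = 1 := by
      rw [sq, ← exp_add, ← exp_add]; simp only [exp_eq_one_iff]; ring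
    calc B ^ 2 * p ≤ exp (-L) ^ 2 * exp (2 * L) :=
          mul_le_mul h1 hpT (Nat.cast_nonneg _) (by positivity)
      _ = 1 := h2
  have hsin : ∀ b : ℝ, |p * θ - k * π| ≤ b → |2 * sin (p * θ) * B| ≤ 2 * b * exp (-L) := by
    intro b hb
    have h1 := abs_sin_mul_le hb 1
    simp only [one_mul, Nat.cast_one] at h1
    rw [abs_mul, abs_mul, abs_two]
    exact mul_le_mul (by linarith) hB (abs_nonneg _) (by linarith [abs_nonneg (sin (p * θ))])
  have fin : ∀ L' : ℝ, 2.2 * L ≤ L' → |2 * sin (p * θ) * B| ≤ exp (-L') →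
      ((l + p : ℕ) : ℝ) ≤ exp (0.7 * L') → Inv β θ L' (2.1 * E + 142) r := by
    intro L' h1 h2 h3
    refine ⟨_, _, _, _, _, _, hstep.mono (by linarith) le_rfl, h2, h3, ?_⟩
    have h4 : exp (-L') ≤ exp (-(0.7 * L)) := exp_le_exp.mpr (by linarith)
    have h5 := cexp_le (c := 2) (a := -(0.7 * L')) (b := -(0.7 * L)) (by linarith)
    linarith
  rcases hcase with ⟨h1, h2⟩ | ⟨h1, h2⟩
  · refine ⟨2.9 * L, by linarith, fin _ (by linarith) ?_ ?_⟩
    · refine (hsin _ h2).trans ?_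
      have h3 : 4 / (T : ℝ) ≤ 8 * exp (-(2 * L)) := by
        rw [show 4 / (T : ℝ) = 4 * (1 / T) by ring]; linarith
      have h4 : exp (-(2 * L)) * exp (-L) = exp (-(3 * L)) := by rw [← exp_add]; congr 1; ring
      have h5 := cexp_le (c := 16) (a := -(3 * L)) (b := -(2.9 * L)) (by linarith)
      have h6 := mul_le_mul_of_nonneg_right h3 (exp_pos (-L)).le
      nlinarith
    · have h3 : exp (0.7 * L) ≤ exp (2 * L) := exp_le_exp.mpr (by linarith)
      have h5 := cexp_le (c := 2) (a := 2 * L) (b := 0.7 * (2.9 * L)) (by linarith)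
      push_cast
      linarith
  · refine ⟨2.2 * L, le_rfl, fin _ le_rfl ?_ ?_⟩
    · refine (hsin _ h2).trans ?_
      have h3 : 8 * (P : ℝ) / (T : ℝ) ≤ 48 * (exp (0.7 * L) * exp (-(2 * L))) := by
        rw [show 8 * (P : ℝ) / (T : ℝ) = 8 * (P * (1 / T)) by ring]
        have := mul_le_mul hP2 hTinv (by positivity) (by positivity)
        linarith
      have h4 : exp (0.7 * L) * exp (-(2 * L)) * exp (-L) = exp (-(2.3 * L)) := by
        rw [← exp_add, ← exp_add]; congr 1; ring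
      have h5 := cexp_le (c := 96) (a := -(2.3 * L)) (b := -(2.2 * L)) (by linarith)
      have h6 := mul_le_mul_of_nonneg_right h3 (exp_pos (-L)).le
      nlinarith
    · have h3 : (p : ℝ) ≤ 2 * P := by exact_mod_cast h1
      have h5 := cexp_le (c := 7) (a := 0.7 * L) (b := 0.7 * (2.2 * L)) (by linarith)
      push_cast
      linarith

theorem inv_start (hβ : 3 / 2 ≤ β) {z σ B φ E₀ ρ : ℝ} (hG : Good β θ z σ B φ 0 E₀ ρ)
    (hB : |B| ≤ 1) (hr : ρ < r) : ∃ L E, 10000 ≤ L ∧ Inv β θ L E r := by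
  obtain ⟨L, hL, hLr⟩ : ∃ L : ℝ, 100000 ≤ L ∧ 42 * exp (-(0.05 * L)) ≤ r - ρ := by
    refine ⟨100000 + 840 / (r - ρ), ?_, ?_⟩
    · have : 0 < 840 / (r - ρ) := div_pos (by norm_num) (by linarith)
      linarith
    · have h0 : 0 < r - ρ := by linarith
      have h1 := add_one_le_exp (0.05 * (100000 + 840 / (r - ρ)))
      rw [exp_neg, ← div_eq_mul_inv, div_le_iff₀ (exp_pos _)]
      have h2 : (r - ρ) * (0.05 * (840 / (r - ρ))) = 42 := by field_simp; norm_num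
      nlinarith
  set T : ℕ := ⌈exp (0.6 * L)⌉₊ with hT
  set P : ℕ := ⌈exp (0.05 * L)⌉₊ with hP
  have e1 : 2 ≤ exp (0.05 * L) := by linarith [add_one_le_exp (0.05 * L)]
  have e2 : 1 ≤ exp (0.6 * L) := one_le_exp (by linarith)
  have hT1 : exp (0.6 * L) ≤ T := Nat.le_ceil _
  have hT2 : (T : ℝ) ≤ 2 * exp (0.6 * L) := by
    have : (T : ℝ) < exp (0.6 * L) + 1 := Nat.ceil_lt_add_one (by positivity)
    linarith
  have hP1 : exp (0.05 * L) ≤ P := Nat.le_ceil _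
  have hP2 : (P : ℝ) ≤ 2 * exp (0.05 * L) := by
    have : (P : ℝ) < exp (0.05 * L) + 1 := Nat.ceil_lt_add_one (by positivity)
    linarith
  have hT0 : (0 : ℝ) < T := by linarith
  have hPT : (P : ℝ) / T ≤ 2 * exp (-(0.55 * L)) := by
    rw [div_le_iff₀ hT0]
    have h1 : exp (-(0.55 * L)) * exp (0.6 * L) = exp (0.05 * L) := by
      rw [← exp_add]; congr 1; ring
    have := mul_le_mul_of_nonneg_left hT1 (exp_pos (-(0.55 * L))).le
    nlinarith
  obtain ⟨p, k, hPp, hcase⟩ := dirichlet θ T P (by exact_mod_cast hT0)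
  have hPpR : (P : ℝ) ≤ p := by exact_mod_cast hPp
  have hp2 : 2 ≤ p := by
    have : (2 : ℝ) ≤ p := by linarith
    exact_mod_cast this
  have hpT : (p : ℝ) ≤ T := by
    rcases hcase with ⟨h1, -⟩ | ⟨h1, -⟩
    · exact_mod_cast h1
    · have : (p : ℝ) ≤ 2 * P := by exact_mod_cast h1
      have := cexp_le (c := 4) (a := 0.05 * L) (b := 0.6 * L) (by linarith)
      linarith
  have hb : |p * θ - k * π| ≤ 16 * exp (-(0.55 * L)) := by
    have h0 : 8 * (P : ℝ) / T ≤ 16 * exp (-(0.55 * L)) := by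
      rw [mul_div_assoc]; linarith
    rcases hcase with ⟨-, h1⟩ | ⟨-, h1⟩
    · refine h1.trans (le_trans ?_ h0)
      exact div_le_div_of_nonneg_right (by linarith) hT0.le
    · exact h1.trans h0
  have hτ1 : 2 * exp (-(0.05 * L)) ≤ 1 := by
    have := cexp_le (c := 2) (a := -(0.05 * L)) (b := 0) (by linarith)
    simpa using this
  have hτ : z * β ^ (-(p : ℤ)) ≤ 2 * exp (-(0.05 * L)) := by
    have := tiny_le hβ hG.up (a := exp (0.05 * L)) (p := p) (exp_pos _) (by push_cast; linarith)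
    rwa [exp_neg, ← div_eq_mul_inv]
  have hs1 := hG.step hβ p hp2 hτ hτ1
  have hτ' := tiny_le hβ hs1.up (a := exp (0.05 * L)) (p := 3 * p) (exp_pos _)
    (by push_cast; linarith)
  rw [div_eq_mul_inv, ← exp_neg] at hτ'
  have hs2 := hs1.step hβ (3 * p) (by omega) hτ' hτ1
  have hx := exp_pos (-(0.55 * L))
  have hB1 : |2 * sin (p * θ) * B| ≤ 32 * exp (-(0.55 * L)) := by
    have h1 := abs_sin_mul_le hb 1
    simp only [one_mul, Nat.cast_one] at h1
    rw [abs_mul, abs_mul, abs_two]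
    have := mul_le_mul (show 2 * |sin (p * θ)| ≤ 32 * exp (-(0.55 * L)) by linarith) hB
      (abs_nonneg _) (by positivity)
    linarith
  have hB2 : |2 * sin (((3 * p : ℕ) : ℝ) * θ) * (2 * sin (p * θ) * B)| ≤ exp (-L) := by
    have h1 := abs_sin_mul_le hb 3
    rw [abs_mul, abs_mul, abs_two]
    have h2 := mul_le_mul
      (show 2 * |sin (((3 * p : ℕ) : ℝ) * θ)| ≤ 96 * exp (-(0.55 * L)) by
        push_cast at h1 ⊢; linarith) hB1 (abs_nonneg _) (by positivity)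
    have h3 : exp (-(0.55 * L)) * exp (-(0.55 * L)) = exp (-(1.1 * L)) := by
      rw [← exp_add]; congr 1; ring
    have h4 := cexp_le (c := 3072) (a := -(1.1 * L)) (b := -L) (by linarith)
    nlinarith
  refine ⟨L, _, by linarith, _, _, _, _, _, _, hs2, hB2, ?_, ?_⟩
  · have := cexp_le (c := 8) (a := 0.6 * L) (b := 0.7 * L) (by linarith)
    push_cast
    linarith
  · have h1 : exp (-(0.55 * L)) ≤ exp (-(0.05 * L)) := exp_le_exp.mpr (by linarith)
    have h2 := cexp_le (c := 7) (a := -(0.7 * L)) (b := -(0.05 * L)) (by linarith)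
    have h3 : exp (-L) ≤ exp (-(0.7 * L)) := exp_le_exp.mpr (by linarith)
    linarith

theorem inv_small (hβ : 3 / 2 ≤ β) {L₀ E₀ : ℝ} (hL : 10000 ≤ L₀) (h : Inv β θ L₀ E₀ r)
    {δ : ℝ} (hδ : 0 < δ) (X : ℝ) : ∃ L, X ≤ L ∧ Inv β θ L (δ * L) r := by
  have hE₀ : 0 ≤ E₀ := by
    obtain ⟨z, σ, B, φ, l, ρ, hG, -⟩ := h
    exact hG.E_nonneg
  have key : ∀ j : ℕ, ∃ L E, 2.2 ^ j * L₀ ≤ L ∧ E + 130 ≤ 2.1 ^ j * (E₀ + 130) ∧
      Inv β θ L E r := by
    intro j
    induction j with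
    | zero => exact ⟨L₀, E₀, by simp, by simp, h⟩
    | succ j ih =>
      obtain ⟨L, E, h1, h2, h3⟩ := ih
      have h4 : (1 : ℝ) ≤ 2.2 ^ j := one_le_pow₀ (by norm_num)
      obtain ⟨L', h5, h6⟩ := h3.step hβ (by nlinarith)
      refine ⟨L', _, ?_, ?_, h6⟩
      · rw [pow_succ]; nlinarith
      · rw [pow_succ]; nlinarith
  have t1 : Tendsto (fun j : ℕ => ((2.1 : ℝ) / 2.2) ^ j) atTop (𝓝 0) :=
    tendsto_pow_atTop_nhds_zero_of_lt_one (by norm_num) (by norm_num)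
  have t2 : Tendsto (fun j : ℕ => (2.2 : ℝ) ^ j) atTop atTop :=
    tendsto_pow_atTop_atTop_of_one_lt (by norm_num)
  obtain ⟨j, hj1, hj2⟩ := ((t1.eventually (gt_mem_nhds (a := δ / (E₀ + 130)) (by positivity))).and
    (t2.eventually_ge_atTop X)).exists
  obtain ⟨L, E, h1, h2, h3⟩ := key j
  have h4 : (0 : ℝ) < 2.2 ^ j := by positivity
  refine ⟨L, by nlinarith, h3.mono ?_⟩
  rw [div_pow, div_lt_div_iff₀ h4 (by positivity)] at hj1
  have h5 : 2.2 ^ j ≤ L := by nlinarith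
  nlinarith

end Vale.Agent.P105
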