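import Vale.Agent.P105.Alg

open Polynomial

namespace Vale.Agent.P105

/-- the reciprocal quartic with parameters `a`, `b` -/
noncomputable def quartic (a b : ℤ) : ℤ[X] := X ^ 4 - C a * X ^ 3 + C b * X ^ 2 - C a * X + 1

lemma quartic_monic (a b : ℤ) : (quartic a b).Monic := by
  unfold quartic
  monicity!

lemma quartic_natDegree (a b : ℤ) : (quartic a b).natDegree = 4 := by
  unfold quartic
  compute_degree!

lemma cyc_irr (p : ℕ) [hp : Fact p.Prime] (hpn : ¬p ∣ 5) (h : orderOf ((p : ℕ) : ZMod 5) = 4) :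
    Irreducible (cyclotomic 5 (ZMod p)) := by
  refine ZMod.irreducible_of_dvd_cyclotomic_of_natDegree hpn dvd_rfl ?_
  rw [← orderOf_units, ZMod.coe_unitOfCoprime, h, natDegree_cyclotomic]
  decide

lemma quartic_irr (a b : ℤ) (p : ℕ) [hp : Fact p.Prime] (hpn : ¬p ∣ 5)
    (h : orderOf ((p : ℕ) : ZMod 5) = 4) (ha : (a : ZMod p) = -1) (hb : (b : ZMod p) = 1) :
    Irreducible (quartic a b) := by
  refine (quartic_monic a b).irreducible_of_irreducible_map (Int.castRingHom (ZMod p)) _ ?_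
  have : Fact (Nat.Prime 5) := ⟨by norm_num⟩
  have e : (quartic a b).map (Int.castRingHom (ZMod p)) = cyclotomic 5 (ZMod p) := by
    rw [cyclotomic_prime]
    simp only [quartic, Polynomial.map_add, Polynomial.map_sub, Polynomial.map_mul,
      Polynomial.map_pow, map_X, map_C, Polynomial.map_one]
    rw [eq_intCast, eq_intCast, ha, hb]
    simp only [Finset.sum_range_succ, Finset.range_zero, Finset.sum_empty, map_neg, map_one]
    ring
  rw [e]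
  exact cyc_irr p hpn h

lemma quartic_irr_one : Irreducible (quartic 1 (-1)) :=
  quartic_irr 1 (-1) 2 (by norm_num)
    ((orderOf_eq_iff (by norm_num)).mpr ⟨by decide, by decide⟩) (by decide) (by decide)

lemma quartic_irr_two : Irreducible (quartic 2 1) :=
  quartic_irr 2 1 3 (by norm_num)
    ((orderOf_eq_iff (by norm_num)).mpr ⟨by decide, by decide⟩) (by decide) (by decide)

lemma aeval_quartic {K : Type*} [Field K] [Algebra ℚ K] (a b : ℤ) (x : K) :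
    aeval x ((quartic a b).map (algebraMap ℤ ℚ))
      = x ^ 4 - a * x ^ 3 + b * x ^ 2 - a * x + 1 := by
  simp [quartic]

lemma minpoly_eq {a b : ℤ} (hirr : Irreducible (quartic a b)) {β : ℝ}
    (hP : β ^ 4 - a * β ^ 3 + b * β ^ 2 - a * β + 1 = 0) :
    minpoly ℚ β = (quartic a b).map (algebraMap ℤ ℚ) := by
  refine (minpoly.eq_of_irreducible_of_monic ?_ ?_ ((quartic_monic a b).map _)).symm
  · exact ((quartic_monic a b).irreducible_iff_irreducible_map_fraction_map).mp hirr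
  · rw [aeval_quartic, hP]

lemma exists_unit_root {a b : ℤ} (hirr : Irreducible (quartic a b)) {β : ℝ} (h1 : 1 < β)
    (hP : β ^ 4 - a * β ^ 3 + b * β ^ 2 - a * β + 1 = 0) (hy : (a - (β + β⁻¹)) ^ 2 ≤ 4) :
    ∃ z ∈ (minpoly ℚ β).aroots ℂ, ‖z‖ = 1 := by
  have hb : 0 < β := by linarith
  obtain ⟨y, hyd⟩ : ∃ y, y = a - (β + β⁻¹) := ⟨_, rfl⟩
  have htr : y ^ 2 - a * y + ((b : ℝ) - 2) = 0 := by
    rw [hyd]
    have : (β + β⁻¹) ^ 2 - a * (β + β⁻¹) + (b - 2) = 0 := by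
      field_simp
      linear_combination hP
    linear_combination this
  rw [← hyd] at hy
  obtain ⟨s, hs⟩ : ∃ s : ℝ, s ^ 2 = 1 - y ^ 2 / 4 := ⟨_, Real.sq_sqrt (by linarith)⟩
  refine ⟨(y / 2 : ℝ) + s * Complex.I, ?_, ?_⟩
  · rw [mem_aroots, minpoly_eq hirr hP, aeval_quartic]
    refine ⟨((quartic_monic a b).map _).ne_zero, ?_⟩
    have e1 : (s : ℂ) ^ 2 = 1 - (y : ℂ) ^ 2 / 4 := by exact_mod_cast hs
    have e2 : (y : ℂ) ^ 2 - a * y + ((b : ℂ) - 2) = 0 := by exact_mod_cast htr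
    obtain ⟨w, hw⟩ : ∃ w : ℂ, w = ((y / 2 : ℝ) : ℂ) + s * Complex.I := ⟨_, rfl⟩
    have e3 : w ^ 2 - y * w + 1 = 0 := by
      rw [hw]; push_cast
      linear_combination (s : ℂ) ^ 2 * Complex.I_sq - e1
    rw [← hw]
    linear_combination (w ^ 2 + (y - a) * w + 1) * e3 + w ^ 2 * e2
  · rw [Complex.norm_add_mul_I, show (y / 2) ^ 2 + s ^ 2 = 1 by linarith, Real.sqrt_one]

lemma not_isPisot {β : ℝ} (h1 : 1 < β) (h : ∃ z ∈ (minpoly ℚ β).aroots ℂ, ‖z‖ = 1) :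
    ¬IsPisot β := by
  obtain ⟨z, hz, hn⟩ := h
  intro hp
  refine (hp.2.2 z hz ?_).ne hn
  rintro rfl
  rw [Complex.norm_real, Real.norm_eq_abs, abs_of_pos (by linarith)] at hn
  linarith

lemma unit_root_one {β : ℝ} (h1 : 1 < β) (hP : β ^ 4 - β ^ 3 - β ^ 2 - β + 1 = 0) :
    ∃ z ∈ (minpoly ℚ β).aroots ℂ, ‖z‖ = 1 := by
  have hb : 0 < β := by linarith
  have hi0 : 0 < β⁻¹ := inv_pos.mpr hb
  have hy : (β + β⁻¹) ^ 2 - (β + β⁻¹) - 3 = 0 := by
    field_simp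
    linear_combination hP
  refine exists_unit_root quartic_irr_one h1 (by push_cast; linarith) ?_
  push_cast
  nlinarith

lemma unit_root_two {β : ℝ} (h1 : 1 < β) (hP : β ^ 4 - 2 * β ^ 3 + β ^ 2 - 2 * β + 1 = 0) :
    ∃ z ∈ (minpoly ℚ β).aroots ℂ, ‖z‖ = 1 := by
  have hb : 0 < β := by linarith
  have hi0 : 0 < β⁻¹ := inv_pos.mpr hb
  have hy : (β + β⁻¹) ^ 2 - 2 * (β + β⁻¹) - 1 = 0 := by
    field_simp
    linear_combination hP
  refine exists_unit_root quartic_irr_two h1 (by push_cast; linarith) ?_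
  push_cast
  nlinarith

lemma exists_root (f : ℝ → ℝ) (hf : Continuous f) (h1 : 0 < f (1 / 2)) (h2 : f 1 < 0) :
    ∃ l ∈ Set.Ioo (1 / 2 : ℝ) 1, f l = 0 :=
  intermediate_value_Ioo' (by norm_num) hf.continuousOn ⟨h2, h1⟩

lemma inv_root {l a b : ℝ} (hl : 0 < l) (h : l ^ 4 - a * l ^ 3 + b * l ^ 2 - a * l + 1 = 0) :
    l⁻¹ ^ 4 - a * l⁻¹ ^ 3 + b * l⁻¹ ^ 2 - a * l⁻¹ + 1 = 0 := by
  field_simp
  linear_combination h

theorem main_one {l : ℝ} (hl : l ∈ Set.Ioo (1 / 2 : ℝ) 1) (h : l ^ 4 - l ^ 3 - l ^ 2 - l + 1 = 0) :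
    ¬IsPisot l⁻¹ ∧ IsSingular (bernoulliConv l) := by
  have h0 : 0 < l := by linarith [hl.1]
  have h1 : 1 < l⁻¹ := (one_lt_inv₀ h0).mpr hl.2
  have h2 := inv_root (a := 1) (b := -1) h0 (by linarith)
  have h3 : l⁻¹ ^ 4 - l⁻¹ ^ 3 - l⁻¹ ^ 2 - l⁻¹ + 1 = 0 := by linarith
  refine ⟨not_isPisot h1 (unit_root_one h1 h3), ?_⟩
  simpa using isSingular_one h1 h3

theorem main_two {l : ℝ} (hl : l ∈ Set.Ioo (1 / 2 : ℝ) 1)
    (h : l ^ 4 - 2 * l ^ 3 + l ^ 2 - 2 * l + 1 = 0) :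
    ¬IsPisot l⁻¹ ∧ IsSingular (bernoulliConv l) := by
  have h0 : 0 < l := by linarith [hl.1]
  have h1 : 1 < l⁻¹ := (one_lt_inv₀ h0).mpr hl.2
  have h2 := inv_root (a := 2) (b := 1) h0 (by linarith)
  have h3 : l⁻¹ ^ 4 - 2 * l⁻¹ ^ 3 + l⁻¹ ^ 2 - 2 * l⁻¹ + 1 = 0 := by linarith
  refine ⟨not_isPisot h1 (unit_root_two h1 h3), ?_⟩
  simpa using isSingular_two h1 h3

end Vale.Agent.P105
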