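import Mathlib

namespace Vale.Agent.P105

/-- A Salem number: a real algebraic integer `b > 1` all of whose other Galois conjugates have
modulus at most one, with at least one conjugate of modulus exactly one. -/
def IsSalem (b : ℝ) : Prop :=
  1 < b ∧ IsIntegral ℤ b ∧ (∀ z ∈ (minpoly ℚ b).aroots ℂ, z ≠ (b : ℂ) → ‖z‖ ≤ 1) ∧
    ∃ z ∈ (minpoly ℚ b).aroots ℂ, ‖z‖ = 1

end Vale.Agent.P105
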