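import Vale.Agent.P105.Pisot
import Vale.Agent.P105.SalemDef

open Polynomial

namespace Vale.Agent.P105

lemma norm_eq_one_of_quad {y : ℝ} (hy : y ^ 2 ≤ 4) {z : ℂ} (h : z ^ 2 - y * z + 1 = 0) :
    ‖z‖ = 1 := by
  have h1 := congrArg Complex.re h
  have h2 := congrArg Complex.im h
  simp [sq] at h1 h2
  have h3 : z.re ^ 2 + z.im ^ 2 = 1 := by
    have h4 : z.im * (2 * z.re - y) = 0 := by linarith
    rcases mul_eq_zero.mp h4 with h5 | h5
    · rw [h5] at h1 ⊢
      have h6 : (2 * z.re - y) ^ 2 ≤ 0 := by nlinarith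
      have h7 : 2 * z.re - y = 0 := by nlinarith [sq_nonneg (2 * z.re - y)]
      have h8 : y = 2 * z.re := by linarith
      rw [h8] at h1
      linarith
    · have h8 : y = 2 * z.re := by linarith
      rw [h8] at h1
      linarith
  rw [Complex.norm_eq_sqrt_sq_add_sq, h3, Real.sqrt_one]

lemma isSalem_of_quartic {a b : ℤ} (hirr : Irreducible (quartic a b)) {β : ℝ} (h1 : 1 < β)
    (hP : β ^ 4 - a * β ^ 3 + b * β ^ 2 - a * β + 1 = 0) (hy : (a - (β + β⁻¹)) ^ 2 ≤ 4) :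
    IsSalem β ∧ (minpoly ℚ β).natDegree = 4 := by
  have hb : 0 < β := by linarith
  refine ⟨⟨h1, ⟨quartic a b, quartic_monic a b, ?_⟩, fun z hz hne => ?_,
    exists_unit_root hirr h1 hP hy⟩, ?_⟩
  · rw [← aeval_def]
    simpa [quartic] using hP
  · rw [mem_aroots, minpoly_eq hirr hP, aeval_quartic] at hz
    obtain ⟨y, hyd⟩ : ∃ y, y = a - (β + β⁻¹) := ⟨_, rfl⟩
    rw [← hyd] at hy
    have hi : β * β⁻¹ = 1 := mul_inv_cancel₀ hb.ne'
    have htr : (β + β⁻¹) * y = b - 2 := by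
      rw [hyd]
      field_simp
      linear_combination -hP
    obtain ⟨c, hc⟩ : ∃ c, c = β⁻¹ := ⟨_, rfl⟩
    have hc1 : c < 1 := hc ▸ inv_lt_one_of_one_lt₀ h1
    have hc0 : 0 < c := hc ▸ inv_pos.mpr hb
    rw [← hc] at hi htr hyd
    have e1 : (β : ℂ) * c = 1 := by exact_mod_cast hi
    have e2 : ((β : ℂ) + c) * y = b - 2 := by exact_mod_cast htr
    have e3 : (y : ℂ) = a - (β + c) := by exact_mod_cast hyd
    have e4 : (z - β) * ((z - c) * (z ^ 2 - y * z + 1)) = 0 := by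
      linear_combination hz.2 + (z ^ 2 - y * z + 1) * e1 + z ^ 2 * e2 - (z ^ 3 + z) * e3
    rcases mul_eq_zero.mp ((mul_eq_zero.mp e4).resolve_left (sub_ne_zero.mpr hne)) with h | h
    · rw [sub_eq_zero.mp h, Complex.norm_real, Real.norm_eq_abs, abs_of_pos hc0]
      exact hc1.le
    · exact (norm_eq_one_of_quad hy h).le
  · rw [minpoly_eq hirr hP, (quartic_monic a b).natDegree_map, quartic_natDegree]

set_option maxHeartbeats 800000 in
lemma quartic_of_isSalem {β : ℝ} (h2 : β < 2) (hS : IsSalem β)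
    (hd : (minpoly ℚ β).natDegree = 4) :
    β ^ 4 - β ^ 3 - β ^ 2 - β + 1 = 0 ∨ β ^ 4 - 2 * β ^ 3 + β ^ 2 - 2 * β + 1 = 0 := by
  obtain ⟨h1, hint, -, α, hα, hn⟩ := hS
  have hb : 0 < β := by linarith
  have hq : minpoly ℚ β = (minpoly ℤ β).map (algebraMap ℤ ℚ) :=
    minpoly.isIntegrallyClosed_eq_field_fractions' ℚ hint
  have hm := minpoly.monic hint
  have hd' : (minpoly ℤ β).natDegree = 4 := by rw [← hd, hq, hm.natDegree_map]
  have h4 : (minpoly ℤ β).coeff 4 = 1 := hd' ▸ hm.coeff_natDegree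
  obtain ⟨c0, hc0⟩ : ∃ c, c = (minpoly ℤ β).coeff 0 := ⟨_, rfl⟩
  obtain ⟨c1, hc1⟩ : ∃ c, c = (minpoly ℤ β).coeff 1 := ⟨_, rfl⟩
  obtain ⟨c2, hc2⟩ : ∃ c, c = (minpoly ℤ β).coeff 2 := ⟨_, rfl⟩
  obtain ⟨c3, hc3⟩ : ∃ c, c = (minpoly ℤ β).coeff 3 := ⟨_, rfl⟩
  have evR : β ^ 4 + c3 * β ^ 3 + c2 * β ^ 2 + c1 * β + c0 = 0 := by
    have := minpoly.aeval ℤ β
    rw [aeval_eq_sum_range, hd'] at this
    simp only [Finset.sum_range_succ, Finset.range_zero, Finset.sum_empty, h4, ← hc0, ← hc1,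
      ← hc2, ← hc3, zsmul_eq_mul] at this
    push_cast at this
    linear_combination this
  have hα' := (mem_aroots.mp hα).2
  have evC : α ^ 4 + c3 * α ^ 3 + c2 * α ^ 2 + c1 * α + c0 = 0 := by
    have := hα'
    rw [hq, aeval_map_algebraMap, aeval_eq_sum_range, hd'] at this
    simp only [Finset.sum_range_succ, Finset.range_zero, Finset.sum_empty, h4, ← hc0, ← hc1,
      ← hc2, ← hc3, zsmul_eq_mul] at this
    push_cast at this
    linear_combination this
  obtain ⟨γ, hγ⟩ : ∃ γ, γ = (starRingEnd ℂ) α := ⟨_, rfl⟩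
  have hαγ : α * γ = 1 := by rw [hγ, Complex.mul_conj, Complex.normSq_eq_norm_sq, hn]; simp
  have evG : γ ^ 4 + c3 * γ ^ 3 + c2 * γ ^ 2 + c1 * γ + c0 = 0 := by
    have := congrArg (starRingEnd ℂ) evC
    simpa [hγ] using this
  have evI : 1 + c3 * α + c2 * α ^ 2 + c1 * α ^ 3 + c0 * α ^ 4 = 0 := by
    linear_combination α ^ 4 * evG - ((α * γ) ^ 3 + (α * γ) ^ 2 + α * γ + 1
      + c3 * α * ((α * γ) ^ 2 + α * γ + 1) + c2 * α ^ 2 * (α * γ + 1) + c1 * α ^ 3) * hαγ
  have hiQ : IsIntegral ℚ β := hint.tower_top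
  have hmα : minpoly ℚ β = minpoly ℚ α :=
    minpoly.eq_of_irreducible_of_monic (minpoly.irreducible hiQ) hα' (minpoly.monic hiQ)
  have hR : (C ((c1 : ℚ) - c0 * c3) * X ^ 3 + C ((c2 : ℚ) - c0 * c2) * X ^ 2
      + C ((c3 : ℚ) - c0 * c1) * X + C ((1 : ℚ) - c0 * c0) : ℚ[X]) = 0 := by
    by_contra hne
    have h5 := minpoly.degree_le_of_ne_zero ℚ α hne (by
      simp only [map_add, map_mul, map_pow, aeval_X, map_sub, map_intCast, map_one]
      linear_combination evI - c0 * evC)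
    have h6 := natDegree_le_iff_degree_le.mpr (h5.trans degree_cubic_le : _ ≤ ((3 : ℕ) : WithBot ℕ))
    rw [← hmα, hd] at h6
    omega
  have r3 := congrArg (fun p : ℚ[X] => p.coeff 3) hR
  have r2 := congrArg (fun p : ℚ[X] => p.coeff 2) hR
  have r0 := congrArg (fun p : ℚ[X] => p.coeff 0) hR
  simp only [coeff_add, coeff_C_mul, coeff_X_pow, coeff_X, coeff_C, coeff_zero] at r3 r2 r0
  norm_num at r3 r2 r0
  have s3 : c1 - c0 * c3 = 0 := by exact_mod_cast r3
  have s2 : c2 - c0 * c2 = 0 := by exact_mod_cast r2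
  have s0 : 1 - c0 * c0 = 0 := by exact_mod_cast r0
  have hi : β * β⁻¹ = 1 := mul_inv_cancel₀ hb.ne'
  have hi0 : 0 < β⁻¹ := inv_pos.mpr hb
  have hi1 : β⁻¹ < 1 := inv_lt_one_of_one_lt₀ h1
  obtain ⟨y, hy⟩ : ∃ y, y = β + β⁻¹ := ⟨_, rfl⟩
  have y1 : 2 < y := by nlinarith
  have y2 : y < 5 / 2 := by nlinarith
  have hyβ : β ^ 2 - y * β + 1 = 0 := by rw [hy]; linear_combination -hi
  rcases Int.eq_one_or_neg_one_of_mul_eq_one (show c0 * c0 = 1 by linarith) with rfl | rfl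
  · obtain rfl : c1 = c3 := by linarith
    have t1 : y ^ 2 + c1 * y + (c2 - 2) = 0 := by
      have : β ^ 2 * (y ^ 2 + c1 * y + (c2 - 2)) = 0 := by
        push_cast at evR
        linear_combination evR - (β ^ 2 + y * β + 1 + c1 * β) * hyβ
      exact (mul_eq_zero.mp this).resolve_left (by positivity)
    have t2 : (2 * α.re) ^ 2 + c1 * (2 * α.re) + (c2 - 2) = 0 := by
      have e : α + γ = ((2 * α.re : ℝ) : ℂ) := by rw [hγ, Complex.add_conj]
      have : (α + γ) ^ 2 + c1 * (α + γ) + (c2 - 2) = 0 := by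
        push_cast at evC
        linear_combination γ ^ 2 * evC - (α ^ 2 * (α * γ + 1) + c1 * α * (α * γ + 1)
          + c2 * (α * γ + 1) + c1 * γ - 2) * hαγ
      rw [e] at this
      exact_mod_cast this
    have t3 := Complex.abs_re_le_norm α
    rw [hn, abs_le] at t3
    obtain ⟨y', hy'⟩ : ∃ y', y' = 2 * α.re := ⟨_, rfl⟩
    rw [← hy'] at t2
    have t4 : y + y' + c1 = 0 := by
      have : (y - y') * (y + y' + c1) = 0 := by linear_combination t1 - t2
      exact (mul_eq_zero.mp this).resolve_left (by linarith [t3.2])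
    have t5 : (y - 2) * (y' - 2) = ((c2 + 2 + 2 * c1 : ℤ) : ℝ) := by
      push_cast
      linear_combination (y - 2) * t4 - t1
    have u1 : ((c2 + 2 + 2 * c1 : ℤ) : ℝ) < 1 := by nlinarith [t3.2]
    have u2 : ((-2 : ℤ) : ℝ) < ((c2 + 2 + 2 * c1 : ℤ) : ℝ) := by
      push_cast at t5 ⊢; nlinarith [t3.1, t3.2]
    have u3 : (c1 : ℝ) < 0 := by linarith [t3.1]
    have u4 : ((-5 : ℤ) : ℝ) < c1 := by push_cast; linarith [t3.2]
    have v1 : c2 + 2 + 2 * c1 < 1 := by exact_mod_cast u1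
    have v2 : -2 < c2 + 2 + 2 * c1 := by exact_mod_cast u2
    have v3 : c1 < 0 := by exact_mod_cast u3
    have v4 : -5 < c1 := by exact_mod_cast u4
    obtain rfl | rfl : c2 = -2 - 2 * c1 ∨ c2 = -3 - 2 * c1 := by omega
    · exfalso
      push_cast at t1
      interval_cases c1 <;> push_cast at t1 <;> nlinarith
    · push_cast at t1 evR
      interval_cases c1 <;> push_cast at t1 evR
      · exfalso; nlinarith
      · exfalso; nlinarith
      · right; linarith
      · left; linarith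
  · exfalso
    obtain rfl : c1 = -c3 := by linarith
    obtain rfl : c2 = 0 := by linarith
    have t1 : (β ^ 2 - 1) * (β * (y + c3)) = 0 := by
      push_cast at evR
      linear_combination evR - (β ^ 2 - 1) * hyβ
    have t2 := (mul_eq_zero.mp ((mul_eq_zero.mp t1).resolve_left (by nlinarith))).resolve_left
      hb.ne'
    have u1 : ((-3 : ℤ) : ℝ) < c3 := by push_cast; linarith
    have u2 : (c3 : ℝ) < ((-2 : ℤ) : ℝ) := by push_cast; linarith
    have v1 : -3 < c3 := by exact_mod_cast u1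
    have v2 : c3 < -2 := by exact_mod_cast u2
    omega

lemma isSalem_one {β : ℝ} (h1 : 1 < β) (hP : β ^ 4 - β ^ 3 - β ^ 2 - β + 1 = 0) :
    IsSalem β ∧ (minpoly ℚ β).natDegree = 4 := by
  have hb : 0 < β := by linarith
  have hi0 : 0 < β⁻¹ := inv_pos.mpr hb
  have hy : (β + β⁻¹) ^ 2 - (β + β⁻¹) - 3 = 0 := by
    field_simp
    linear_combination hP
  refine isSalem_of_quartic quartic_irr_one h1 (by push_cast; linarith) ?_
  push_cast
  nlinarith

lemma isSalem_two {β : ℝ} (h1 : 1 < β) (hP : β ^ 4 - 2 * β ^ 3 + β ^ 2 - 2 * β + 1 = 0) :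
    IsSalem β ∧ (minpoly ℚ β).natDegree = 4 := by
  have hb : 0 < β := by linarith
  have hi0 : 0 < β⁻¹ := inv_pos.mpr hb
  have hy : (β + β⁻¹) ^ 2 - 2 * (β + β⁻¹) - 1 = 0 := by
    field_simp
    linear_combination hP
  refine isSalem_of_quartic quartic_irr_two h1 (by push_cast; linarith) ?_
  push_cast
  nlinarith

theorem salem_iff {l : ℝ} (hl : l ∈ Set.Ioo (1 / 2 : ℝ) 1) :
    (IsSalem l⁻¹ ∧ (minpoly ℚ l⁻¹).natDegree = 4) ↔
      (l ^ 4 - l ^ 3 - l ^ 2 - l + 1 = 0 ∨ l ^ 4 - 2 * l ^ 3 + l ^ 2 - 2 * l + 1 = 0) := by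
  have h0 : 0 < l := by linarith [hl.1]
  have h1 : 1 < l⁻¹ := (one_lt_inv₀ h0).mpr hl.2
  have h2 : l⁻¹ < 2 := by
    rw [inv_lt_comm₀ h0 (by norm_num)]; linarith [hl.1]
  constructor
  · rintro ⟨hS, hd⟩
    rcases quartic_of_isSalem h2 hS hd with h | h
    · have := inv_root (a := 1) (b := -1) (inv_pos.mpr h0) (by linarith)
      rw [inv_inv] at this
      left; linarith
    · have := inv_root (a := 2) (b := 1) (inv_pos.mpr h0) (by linarith)
      rw [inv_inv] at this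
      right; linarith
  · rintro (h | h)
    · have := inv_root (a := 1) (b := -1) h0 (by linarith)
      exact isSalem_one h1 (by linarith)
    · have := inv_root (a := 2) (b := 1) h0 (by linarith)
      exact isSalem_two h1 (by linarith)

end Vale.Agent.P105
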