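import Mathlib

open Finset Real

namespace Vale.Agent.P105

/-- distance to the nearest integer -/
noncomputable def dz (x : ℝ) : ℝ := |x - round x|

lemma dz_nonneg (x : ℝ) : 0 ≤ dz x := abs_nonneg _

lemma dz_le_half (x : ℝ) : dz x ≤ 1 / 2 := abs_sub_round x

lemma dz_le_abs (x : ℝ) : dz x ≤ |x| := by simpa [dz] using round_le x 0

lemma dz_le_add {x y σ e : ℝ} (hσ : σ = 1 ∨ σ = -1) (k : ℤ) (h : x + σ * y + e = k) :
    dz x ≤ dz y + |e| := by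
  rcases hσ with rfl | rfl
  · have h1 := round_le x (k - round y)
    have h2 : x - ((k - round y : ℤ) : ℝ) = -(y - round y) + -e := by push_cast; linarith
    rw [h2] at h1
    have h3 := abs_add_le (-(y - round y)) (-e)
    rw [abs_neg, abs_neg] at h3
    exact h1.trans h3
  · have h1 := round_le x (k + round y)
    have h2 : x - ((k + round y : ℤ) : ℝ) = (y - round y) + -e := by push_cast; linarith
    rw [h2] at h1
    have h3 := abs_add_le (y - round y) (-e)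
    rw [abs_neg] at h3
    exact h1.trans h3

lemma sq_add_le (a b : ℝ) : (a + b) ^ 2 ≤ 1.03 * a ^ 2 + 35 * b ^ 2 := by
  nlinarith [sq_nonneg (0.03 * a - b), sq_nonneg b]

lemma sq_le_of_le_add {x a b : ℝ} (hx : 0 ≤ x) (h : x ≤ a + b) :
    x ^ 2 ≤ 1.03 * a ^ 2 + 35 * b ^ 2 :=
  (pow_le_pow_left₀ hx h 2).trans (sq_add_le a b)

/-- the state of the construction -/
structure Good (β θ z σ B φ : ℝ) (l : ℕ) (E ρ : ℝ) : Prop where
  sgn : σ = 1 ∨ σ = -1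
  int : ∀ m : ℤ, ∃ k : ℤ, z * β ^ m + σ * (z * β ^ (-m)) + B * sin (m * θ + φ) = k
  low : 1 / 8 ≤ z
  up : z ≤ β ^ l
  en : ∀ M : ℕ, ∑ n ∈ range M, dz (z * β ^ (-(n : ℤ))) ^ 2 ≤ E
  sup : ∀ m : ℤ, dz (z * β ^ m) ≤ ρ

variable {β θ z σ B φ : ℝ} {l : ℕ} {E ρ : ℝ}

lemma refl_of_int (hσ : σ = 1 ∨ σ = -1)
    (h : ∀ m : ℤ, ∃ k : ℤ, z * β ^ m + σ * (z * β ^ (-m)) + B * sin (m * θ + φ) = k) (m : ℤ) :
    dz (z * β ^ m) ≤ dz (z * β ^ (-m)) + |B| := by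
  obtain ⟨k, hk⟩ := h m
  refine (dz_le_add hσ k hk).trans ?_
  rw [abs_mul]
  have := abs_sin_le_one (m * θ + φ)
  nlinarith [abs_nonneg B]

lemma Good.refl (h : Good β θ z σ B φ l E ρ) (m : ℤ) :
    dz (z * β ^ m) ≤ dz (z * β ^ (-m)) + |B| := refl_of_int h.sgn h.int m

lemma Good.E_nonneg (h : Good β θ z σ B φ l E ρ) : 0 ≤ E := by simpa using h.en 0

lemma Good.mono (h : Good β θ z σ B φ l E ρ) {E' ρ' : ℝ} (hE : E ≤ E') (hρ : ρ ≤ ρ') :
    Good β θ z σ B φ l E' ρ' :=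
  ⟨h.sgn, h.int, h.low, h.up, fun M => (h.en M).trans hE, fun m => (h.sup m).trans hρ⟩

lemma Good.en_shift (h : Good β θ z σ B φ l E ρ) (N M : ℕ) :
    ∑ n ∈ range M, dz (z * β ^ ((N : ℤ) - n)) ^ 2 ≤ 2.03 * E + 35 * (B ^ 2 * N) := by
  have h1 : ∑ n ∈ range M, dz (z * β ^ ((N : ℤ) - n)) ^ 2
      ≤ ∑ n ∈ range (N + M), dz (z * β ^ ((N : ℤ) - n)) ^ 2 :=
    sum_le_sum_of_subset_of_nonneg (range_subset_range.mpr (Nat.le_add_left _ _))
      fun _ _ _ => sq_nonneg _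
  rw [sum_range_add] at h1
  have h2 : ∑ n ∈ range M, dz (z * β ^ ((N : ℤ) - ((N + n : ℕ) : ℤ))) ^ 2 ≤ E := by
    refine le_of_eq_of_le (sum_congr rfl fun n _ => ?_) (h.en M)
    congr 4; push_cast; ring
  have h3 : ∑ n ∈ range N, dz (z * β ^ ((N : ℤ) - n)) ^ 2
      = ∑ n ∈ range N, dz (z * β ^ (((n + 1 : ℕ) : ℤ))) ^ 2 := by
    rw [← sum_range_reflect]
    refine sum_congr rfl fun n hn => ?_
    have := mem_range.mp hn
    congr 4
    rw [Nat.cast_sub (by omega), Nat.cast_sub (by omega)]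
    push_cast; ring
  have h4 : ∑ n ∈ range N, dz (z * β ^ (((n + 1 : ℕ) : ℤ))) ^ 2
      ≤ ∑ n ∈ range N, (1.03 * dz (z * β ^ (-((n + 1 : ℕ) : ℤ))) ^ 2 + 35 * B ^ 2) := by
    refine sum_le_sum fun n _ => ?_
    have := sq_le_of_le_add (dz_nonneg _) (h.refl ((n + 1 : ℕ) : ℤ))
    rwa [sq_abs] at this
  have h5 : ∑ n ∈ range N, dz (z * β ^ (-((n + 1 : ℕ) : ℤ))) ^ 2 ≤ E := by
    have := h.en (N + 1)
    rw [sum_range_succ'] at this
    have h0 := sq_nonneg (dz (z * β ^ (-((0 : ℕ) : ℤ))))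
    linarith
  rw [sum_add_distrib, ← mul_sum, sum_const, card_range, nsmul_eq_mul] at h4
  nlinarith

lemma geom_bound (hβ : 3 / 2 ≤ β) (M : ℕ) : ∑ n ∈ range M, β ^ (-(n : ℤ)) ≤ 3 := by
  have hb : 0 < β := by linarith
  have h1 : β⁻¹ ≤ 2 / 3 := by
    rw [inv_le_comm₀ hb (by norm_num)]; linarith
  have h2 : ∑ n ∈ range M, β ^ (-(n : ℤ)) ≤ ∑ n ∈ range M, (2 / 3 : ℝ) ^ n := by
    refine sum_le_sum fun n _ => ?_
    rw [zpow_neg, zpow_natCast, ← inv_pow]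
    exact pow_le_pow_left₀ (by positivity) h1 n
  refine h2.trans ?_
  have h3 := (summable_geometric_of_lt_one (by norm_num : (0 : ℝ) ≤ 2 / 3)
    (by norm_num)).sum_le_tsum (range M) (fun n _ => by positivity)
  rw [tsum_geometric_of_lt_one (by norm_num) (by norm_num)] at h3
  norm_num at h3 ⊢
  exact h3

lemma zpow_neg_le_one (hβ : 3 / 2 ≤ β) (n : ℕ) : β ^ (-(n : ℤ)) ≤ 1 :=
  zpow_le_one_of_nonpos₀ (by linarith) (by omega)

theorem Good.step (hβ : 3 / 2 ≤ β) (h : Good β θ z σ B φ l E ρ) (p : ℕ) (hp : 2 ≤ p) {τ : ℝ}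
    (hτ : z * β ^ (-(p : ℤ)) ≤ τ) (hτ1 : τ ≤ 1) :
    Good β θ ((β ^ (p : ℤ) - β ^ (-(p : ℤ))) * z) (-σ) (2 * sin (p * θ) * B) (φ + π / 2) (l + p)
      (2.1 * E + 37 * (B ^ 2 * p) + 105) (ρ + τ + |2 * sin (p * θ) * B|) := by
  have hb : 0 < β := by linarith
  have hz : 0 < z := by linarith [h.low]
  have hσ' : -σ = 1 ∨ -σ = -1 := by rcases h.sgn with h | h <;> simp [h]
  have hsplit : ∀ m : ℤ, (β ^ (p : ℤ) - β ^ (-(p : ℤ))) * z * β ^ m
      = z * β ^ (m + p) - z * β ^ (m - p) := by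
    intro m
    rw [zpow_add₀ hb.ne', sub_eq_add_neg m, zpow_add₀ hb.ne']; ring
  have hint : ∀ m : ℤ, ∃ k : ℤ, (β ^ (p : ℤ) - β ^ (-(p : ℤ))) * z * β ^ m
      + -σ * ((β ^ (p : ℤ) - β ^ (-(p : ℤ))) * z * β ^ (-m))
      + 2 * sin (p * θ) * B * sin (m * θ + (φ + π / 2)) = k := by
    intro m
    obtain ⟨k1, h1⟩ := h.int (m + p)
    obtain ⟨k2, h2⟩ := h.int (m - p)
    refine ⟨k1 - k2, ?_⟩
    rw [hsplit, hsplit]
    have e1 : -(m + (p : ℤ)) = -m - p := by ring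
    have e2 : -(m - (p : ℤ)) = -m + p := by ring
    rw [e1] at h1
    rw [e2] at h2
    have e3 : ((m + p : ℤ) : ℝ) * θ + φ = (m * θ + φ) + p * θ := by push_cast; ring
    have e4 : ((m - p : ℤ) : ℝ) * θ + φ = (m * θ + φ) - p * θ := by push_cast; ring
    rw [e3, sin_add] at h1
    rw [e4, sin_sub] at h2
    rw [← add_assoc (m * θ), sin_add_pi_div_two]
    push_cast
    linear_combination h1 - h2
  have hneg : ∀ n : ℕ, dz ((β ^ (p : ℤ) - β ^ (-(p : ℤ))) * z * β ^ (-(n : ℤ)))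
      ≤ dz (z * β ^ ((p : ℤ) - n)) + τ * β ^ (-(n : ℤ)) := by
    intro n
    have h1 := dz_le_add (x := (β ^ (p : ℤ) - β ^ (-(p : ℤ))) * z * β ^ (-(n : ℤ)))
      (y := z * β ^ ((p : ℤ) - n)) (e := z * β ^ (-(n : ℤ) - p)) (Or.inr rfl) 0 (by
        rw [hsplit, show -(n : ℤ) + p = p - n by ring]; push_cast; ring)
    refine h1.trans (add_le_add le_rfl ?_)
    rw [abs_of_pos (by positivity), sub_eq_add_neg, zpow_add₀ hb.ne']
    have : 0 < β ^ (-(n : ℤ)) := by positivity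
    nlinarith
  have hτ0 : 0 ≤ τ := le_trans (by positivity) hτ
  refine ⟨hσ', hint, ?_, ?_, fun M => ?_, fun m => ?_⟩
  · have h1 : β ^ (2 : ℤ) ≤ β ^ (p : ℤ) := zpow_le_zpow_right₀ (by linarith) (by omega)
    have h2 := zpow_neg_le_one hβ p
    have h3 : β ^ (2 : ℤ) = β * β := by rw [zpow_two]
    have h5 : 9 / 4 ≤ β * β := by nlinarith
    rw [h3] at h1
    have h6 := h.low
    generalize β ^ (p : ℤ) = a at h1 ⊢
    generalize β ^ (-(p : ℤ)) = b at h2 ⊢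
    have h4 : 1 ≤ a - b := by linarith
    nlinarith
  · have h1 : 0 < β ^ (-(p : ℤ)) := by positivity
    have h2 : 0 < β ^ p := by positivity
    rw [pow_add, zpow_natCast]
    nlinarith [h.up]
  · have h1 : ∑ n ∈ range M, dz ((β ^ (p : ℤ) - β ^ (-(p : ℤ))) * z * β ^ (-(n : ℤ))) ^ 2
        ≤ ∑ n ∈ range M, (1.03 * dz (z * β ^ ((p : ℤ) - n)) ^ 2 + 35 * β ^ (-(n : ℤ))) := by
      refine sum_le_sum fun n _ => (sq_le_of_le_add (dz_nonneg _) (hneg n)).trans ?_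
      have h2 := zpow_neg_le_one hβ n
      have h3 : 0 < β ^ (-(n : ℤ)) := by positivity
      have h4 : τ * β ^ (-(n : ℤ)) ≤ 1 := by nlinarith
      have h5 : τ * β ^ (-(n : ℤ)) ≤ β ^ (-(n : ℤ)) := by nlinarith
      have h6 : 0 ≤ τ * β ^ (-(n : ℤ)) := by positivity
      nlinarith
    rw [sum_add_distrib, ← mul_sum, ← mul_sum] at h1
    have h2 := h.en_shift p M
    have h3 := geom_bound hβ M
    have h4 := h.E_nonneg
    have h5 : 0 ≤ B ^ 2 * p := by positivity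
    nlinarith
  · have hn : ∀ n : ℕ, dz ((β ^ (p : ℤ) - β ^ (-(p : ℤ))) * z * β ^ (-(n : ℤ))) ≤ ρ + τ := by
      intro n
      have h2 := zpow_neg_le_one hβ n
      have := h.sup ((p : ℤ) - n)
      have := hneg n
      nlinarith
    obtain ⟨n, rfl | rfl⟩ := Int.eq_nat_or_neg m
    · have := refl_of_int hσ' hint (n : ℤ)
      linarith [hn n]
    · linarith [hn n, abs_nonneg (2 * sin (p * θ) * B)]

lemma tiny_le (hβ : 3 / 2 ≤ β) {z : ℝ} {l p : ℕ} (hz : z ≤ β ^ l) {a : ℝ} (ha : 0 < a)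
    (hp : l + a ≤ p) : z * β ^ (-(p : ℤ)) ≤ 2 / a := by
  have hb : 0 < β := by linarith
  have hlp : l ≤ p := by
    have : (l : ℝ) ≤ p := by linarith
    exact_mod_cast this
  obtain ⟨k, rfl⟩ := Nat.exists_eq_add_of_le hlp
  have hk : a ≤ k := by push_cast at hp; linarith
  have h1 : 1 + (k : ℝ) * (β - 1) ≤ β ^ k := by
    have := one_add_mul_le_pow (a := β - 1) (by linarith) k
    simpa using this
  have h2 : a / 2 ≤ β ^ k := by nlinarith
  rw [zpow_neg, zpow_natCast, pow_add, ← div_eq_mul_inv, div_le_div_iff₀ (by positivity) ha]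
  have h3 : 0 < β ^ l := by positivity
  nlinarith

lemma abs_sin_mul_le {θ b : ℝ} {p : ℕ} {k : ℤ} (h : |p * θ - k * π| ≤ b) (j : ℕ) :
    |sin (((j * p : ℕ) : ℝ) * θ)| ≤ j * b := by
  have h1 : ((j * p : ℕ) : ℝ) * θ = j * (p * θ - k * π) + ((j * k : ℤ) : ℝ) * π := by
    push_cast; ring
  rw [h1, sin_add_int_mul_pi, abs_mul]
  have h2 : |((-1 : ℝ)) ^ ((j : ℤ) * k)| = 1 := by
    rw [abs_zpow]; simp
  rw [h2, one_mul]
  refine abs_sin_le_abs.trans ?_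
  rw [abs_mul, Nat.abs_cast]
  exact mul_le_mul_of_nonneg_left h (Nat.cast_nonneg _)

lemma dirichlet (θ : ℝ) (T P : ℕ) (hT : 0 < T) :
    ∃ (p : ℕ) (k : ℤ), P ≤ p ∧ ((p ≤ T ∧ |p * θ - k * π| ≤ 4 / T) ∨
      (p ≤ 2 * P ∧ |p * θ - k * π| ≤ 8 * P / T)) := by
  obtain ⟨q, hq0, hqT, hq⟩ := Real.exists_nat_abs_mul_sub_round_le (θ / π) hT
  have hTR : (0 : ℝ) < T := by exact_mod_cast hT
  have h1 : |q * θ - (round (q * (θ / π)) : ℤ) * π| ≤ 4 / T := by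
    have e : q * θ - (round (q * (θ / π)) : ℤ) * π
        = π * (q * (θ / π) - round (q * (θ / π))) := by
      field_simp
    rw [e, abs_mul, abs_of_pos pi_pos]
    have h2 : 1 / ((T : ℝ) + 1) ≤ 1 / T := one_div_le_one_div_of_le hTR (by linarith)
    have h3 : π * |q * (θ / π) - round (q * (θ / π))| ≤ 4 * (1 / T) :=
      mul_le_mul pi_le_four (hq.trans h2) (abs_nonneg _) (by norm_num)
    simpa [div_eq_mul_inv] using h3
  by_cases hP : P ≤ q
  · exact ⟨q, _, hP, Or.inl ⟨hqT, h1⟩⟩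
  · push Not at hP
    set j := P / q + 1 with hj
    have h2 : P < j * q := by
      have := Nat.lt_div_mul_add (a := P) hq0
      rw [hj, add_mul, one_mul]; exact this
    have h3 : j * q ≤ 2 * P := by
      have := Nat.div_mul_le_self P q
      rw [hj, add_mul, one_mul]; omega
    have h4 : j ≤ 2 * P := le_trans (Nat.le_mul_of_pos_right j hq0) h3
    refine ⟨j * q, j * round (q * (θ / π)), h2.le, Or.inr ⟨h3, ?_⟩⟩
    have e : ((j * q : ℕ) : ℝ) * θ - ((j * round (q * (θ / π)) : ℤ) : ℝ) * π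
        = j * (q * θ - (round (q * (θ / π)) : ℤ) * π) := by push_cast; ring
    rw [e, abs_mul, Nat.abs_cast]
    have h5 : (j : ℝ) ≤ 2 * P := by exact_mod_cast h4
    calc (j : ℝ) * |q * θ - (round (q * (θ / π)) : ℤ) * π| ≤ (2 * P) * (4 / T) :=
          mul_le_mul h5 h1 (abs_nonneg _) (by positivity)
      _ = 8 * P / T := by ring

end Vale.Agent.P105
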